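import Vale.Agent.P159.T1.S.H934.SVFin
import Vale.Agent.P159.T1.S.H459.VSq
import Vale.Agent.P159.T1.H934.Hpos
import Vale.Agent.P159.T1.D.H226.Lat2

/-!
`StmtSV` from the official form of the free square.
-/

open Filter Topology MeasureTheory

namespace Vale.Agent.P159.T1.S.H934

open Vale.Agent.P159 Vale.Agent.P159.T1.D

lemma stmtSQ_of (h : ∀ b, bCrit ≤ b → H459.FreeSq b) : StmtSQ := by
  intro b hb ψ hψ hc hs ε hε
  obtain ⟨n0, h0⟩ := h b hb ψ hψ hc hs ε hε
  refine ⟨n0, fun n hn u U hU => ?_⟩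
  have h1 := h0 n hn u U fun f f1 f2 f3 f4 => hU (f + u) (by simp only [Prod.fst_add]; omega)
    (by simp only [Prod.fst_add]; omega) (by simp only [Prod.snd_add]; omega)
    (by simp only [Prod.snd_add]; omega)
  have h2 : H459.sq ψ n u = fun f => ψ (((f.1 : ℝ) - u.1) / n, ((f.2 : ℝ) - u.2) / n) := by
    funext f
    unfold H459.sq smp
    simp only [Prod.fst_sub, Prod.snd_sub, Int.cast_sub, Prod.fst_zero, Prod.snd_zero, add_zero]
  rwa [h2] at h1

/-- **S.V from the free square** -/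
theorem stmtSV_of (hF : ∀ b, bCrit ≤ b → H459.FreeSq b) (hUV : StmtUV) : StmtSV :=
  stmtSV (fun b hb => ⟨(Vale.Agent.P159.T1.H934.pos_of_ge b hb).1,
    le_trans (by have := Real.pi_pos; positivity) (Vale.Agent.P159.T1.H934.pos_of_ge b hb).2⟩)
    (stmtSQ_of hF) stmtLat hUV

end Vale.Agent.P159.T1.S.H934
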