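import Vale.Agent.P159.T1.H934.CoverDefs
import Mathlib.Analysis.SpecialFunctions.SmoothTransition

/-!
A smooth partition of unity by products of telescoping steps, with shifts by a quarter.
-/

open Filter Topology MeasureTheory

namespace Vale.Agent.P159.T1.S.H934

open Vale.Agent.P159.T1.D

/-- smooth step -/
noncomputable def st (x : ℝ) : ℝ := Real.smoothTransition (4 * x)

lemma st_nonneg (x : ℝ) : 0 ≤ st x := Real.smoothTransition.nonneg _

lemma st_le_one (x : ℝ) : st x ≤ 1 := Real.smoothTransition.le_one _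

lemma st_zero {x : ℝ} (h : x ≤ 0) : st x = 0 :=
  Real.smoothTransition.zero_of_nonpos (by linarith)

lemma st_one {x : ℝ} (h : 1 / 4 ≤ x) : st x = 1 :=
  Real.smoothTransition.one_of_one_le (by linarith)

lemma st_mono : Monotone st := fun x y h =>
  Real.smoothTransition.monotone (by linarith)

lemma st_contDiff : ContDiff ℝ 2 st := by
  unfold st
  exact Real.smoothTransition.contDiff.comp (contDiff_const.mul contDiff_id)

/-- one dimensional bump, supported in `[1/4, 3/4]` -/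
noncomputable def cu (x : ℝ) : ℝ := st (x - 1 / 4) - st (x - 1 / 2)

lemma cu_nonneg (x : ℝ) : 0 ≤ cu x := sub_nonneg.2 (st_mono (by linarith))

lemma cu_le_one (x : ℝ) : cu x ≤ 1 := by
  have h1 := st_le_one (x - 1 / 4)
  have h2 := st_nonneg (x - 1 / 2)
  unfold cu
  linarith

lemma cu_left {x : ℝ} (h : x ≤ 1 / 4) : cu x = 0 := by
  unfold cu
  rw [st_zero (by linarith), st_zero (by linarith), sub_zero]

lemma cu_right {x : ℝ} (h : 3 / 4 ≤ x) : cu x = 0 := by
  unfold cu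
  rw [st_one (by linarith), st_one (by linarith), sub_self]

lemma cu_mem {x : ℝ} (h : cu x ≠ 0) : 1 / 4 < x ∧ x < 3 / 4 := by
  constructor
  · by_contra h1
    exact h (cu_left (not_lt.1 h1))
  · by_contra h1
    exact h (cu_right (not_lt.1 h1))

lemma cu_contDiff : ContDiff ℝ 2 cu := by
  unfold cu
  exact (st_contDiff.comp (contDiff_id.sub contDiff_const)).sub
    (st_contDiff.comp (contDiff_id.sub contDiff_const))

/-- telescoping -/
lemma cu_tele (x : ℝ) (n : ℕ) : ∑ i ∈ Finset.range n, cu (x - (i : ℝ) / 4) =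
    st (x - 1 / 4) - st (x - 1 / 4 - (n : ℝ) / 4) := by
  induction n with
  | zero => simp
  | succ n ih =>
    rw [Finset.sum_range_succ, ih]
    unfold cu
    have h1 : x - (n : ℝ) / 4 - 1 / 4 = x - 1 / 4 - (n : ℝ) / 4 := by ring
    have h2 : x - (n : ℝ) / 4 - 1 / 2 = x - 1 / 4 - ((n + 1 : ℕ) : ℝ) / 4 := by
      push_cast
      ring
    rw [h1, h2]
    ring

/-- partition of unity in one dimension -/
lemma cu_sum {x : ℝ} {I : ℕ} (h1 : -(I : ℝ) / 4 + 1 / 2 ≤ x) (h2 : x ≤ (I : ℝ) / 4) :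
    ∑ i ∈ Finset.Icc (-(I : ℤ)) (I : ℤ), cu (x - (i : ℝ) / 4) = 1 := by
  have h3 : ∑ i ∈ Finset.Icc (-(I : ℤ)) (I : ℤ), cu (x - (i : ℝ) / 4) =
      ∑ i ∈ Finset.range (2 * I + 1), cu ((x + (I : ℝ) / 4) - (i : ℝ) / 4) := by
    symm
    refine Finset.sum_bij (fun (i : ℕ) _ => (i : ℤ) - I) ?_ ?_ ?_ ?_
    · intro i hi
      rw [Finset.mem_range] at hi
      rw [Finset.mem_Icc]
      omega
    · intro i _ j _ hij
      simpa using hij
    · intro i hi
      rw [Finset.mem_Icc] at hi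
      refine ⟨(i + I).toNat, ?_, ?_⟩
      · rw [Finset.mem_range]
        omega
      · have : 0 ≤ i + I := by omega
        simp only [Int.toNat_of_nonneg this]
        ring
    · intro i _
      congr 1
      push_cast
      ring
  rw [h3, cu_tele, st_one, st_zero, sub_zero]
  · push_cast
    linarith
  · linarith

/-- the bump, supported in `[1/4, 3/4]²` -/
noncomputable def bu (z : ℝ × ℝ) : ℝ := cu z.1 * cu z.2

lemma bu_nonneg (z : ℝ × ℝ) : 0 ≤ bu z := mul_nonneg (cu_nonneg _) (cu_nonneg _)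

lemma bu_le_one (z : ℝ × ℝ) : bu z ≤ 1 :=
  mul_le_one₀ (cu_le_one _) (cu_nonneg _) (cu_le_one _)

lemma bu_mem {z : ℝ × ℝ} (h : bu z ≠ 0) : (1 / 4 < z.1 ∧ z.1 < 3 / 4) ∧
    1 / 4 < z.2 ∧ z.2 < 3 / 4 :=
  ⟨cu_mem (left_ne_zero_of_mul h), cu_mem (right_ne_zero_of_mul h)⟩

lemma bu_contDiff : ContDiff ℝ 2 bu := by
  unfold bu
  exact (cu_contDiff.comp contDiff_fst).mul (cu_contDiff.comp contDiff_snd)

/-- the three test functions -/
noncomputable def tf (k : Fin 3) (z : ℝ × ℝ) : ℝ :=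
  (if k = 0 then 1 else if k = 1 then z.1 else z.2) * bu z

lemma tf_contDiff (k : Fin 3) : ContDiff ℝ 2 (tf k) := by
  unfold tf
  refine ContDiff.mul ?_ bu_contDiff
  fin_cases k
  · simpa using contDiff_const
  · simpa using contDiff_fst
  · simpa using contDiff_snd

lemma tf_zero {k : Fin 3} {z : ℝ × ℝ} (h : bu z = 0) : tf k z = 0 := by
  unfold tf
  rw [h, mul_zero]

/-- the closed square which contains the supports -/
def sq : Set (ℝ × ℝ) := Set.Icc (1 / 4 : ℝ) (3 / 4) ×ˢ Set.Icc (1 / 4 : ℝ) (3 / 4)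

lemma tf_support (k : Fin 3) : Function.support (tf k) ⊆ sq := by
  intro z hz
  have h1 : bu z ≠ 0 := fun h => hz (tf_zero h)
  have h2 := bu_mem h1
  exact ⟨⟨h2.1.1.le, h2.1.2.le⟩, ⟨h2.2.1.le, h2.2.2.le⟩⟩

lemma sq_closed : IsClosed sq := isClosed_Icc.prod isClosed_Icc

lemma sq_compact : IsCompact sq := isCompact_Icc.prod isCompact_Icc

lemma tf_tsupport (k : Fin 3) : tsupport (tf k) ⊆ sq :=
  closure_minimal (tf_support k) sq_closed

lemma tf_compact (k : Fin 3) : HasCompactSupport (tf k) :=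
  sq_compact.of_isClosed_subset (isClosed_tsupport _) (tf_tsupport k)

lemma tf_open {k : Fin 3} {z : ℝ × ℝ} (hz : z ∈ tsupport (tf k)) :
    0 < z.1 ∧ z.1 < 1 ∧ 0 < z.2 ∧ z.2 < 1 := by
  have h1 := tf_tsupport k hz
  obtain ⟨⟨h2, h3⟩, ⟨h4, h5⟩⟩ := h1
  refine ⟨by linarith, by linarith, by linarith, by linarith⟩

lemma bu_compact : HasCompactSupport bu := by
  have h : bu = tf 0 := by
    funext z
    simp [tf]
  rw [h]
  exact tf_compact 0

lemma bu_lip : ∃ K : ℝ, 0 < K ∧ ∀ z w : ℝ × ℝ, |bu z - bu w| ≤ K * ‖z - w‖ := by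
  obtain ⟨K, hK⟩ := ContDiff.lipschitzWith_of_hasCompactSupport bu_compact bu_contDiff
    (by norm_num)
  refine ⟨K + 1, by positivity, fun z w => ?_⟩
  have h1 := hK.dist_le_mul z w
  rw [Real.dist_eq, dist_eq_norm] at h1
  have h2 := norm_nonneg (z - w)
  nlinarith

end Vale.Agent.P159.T1.S.H934
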