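import Vale.Agent.P159.T1.H934.VrQ

/-!
Discrete Taylor formula and sums over boxes of bonds.
-/

open Filter Topology MeasureTheory

namespace Vale.Agent.P159.T1.S.H934

open Vale.Agent.P159.T1.D

/-- first difference in the first direction -/
def d1 (φ : Z2 → ℝ) (f : Z2) : ℝ := φ (f.1 + 1, f.2) - φ f

/-- first difference in the second direction -/
def d2 (φ : Z2 → ℝ) (f : Z2) : ℝ := φ (f.1, f.2 + 1) - φ f

lemma path1 {F : ℤ → ℝ} {γ : ℝ} (h : ∀ i, |F (i + 1) - F i| ≤ γ) (i : ℤ) :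
    ∀ j, i ≤ j → |F j - F i| ≤ ((j : ℝ) - i) * γ := by
  intro j hj
  induction j, hj using Int.leInduction with
  | base => simp
  | succ n hn ih =>
    have h1 := h n
    calc |F (n + 1) - F i| = |(F (n + 1) - F n) + (F n - F i)| := by congr 1; ring
      _ ≤ |F (n + 1) - F n| + |F n - F i| := abs_add_le _ _
      _ ≤ γ + ((n : ℝ) - i) * γ := add_le_add h1 ih
      _ = (((n + 1 : ℤ) : ℝ) - i) * γ := by push_cast; ring

lemma path1' {F : ℤ → ℝ} {γ : ℝ} (h : ∀ i, |F (i + 1) - F i| ≤ γ) (i j : ℤ) :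
    |F j - F i| ≤ |(j : ℝ) - i| * γ := by
  rcases le_total i j with hij | hij
  · rw [abs_of_nonneg (show (0 : ℝ) ≤ (j : ℝ) - i by
      have : (i : ℝ) ≤ j := by exact_mod_cast hij
      linarith)]
    exact path1 h i j hij
  · rw [abs_sub_comm (F j), abs_sub_comm (j : ℝ), abs_of_nonneg (show (0 : ℝ) ≤ (i : ℝ) - j by
      have : (j : ℝ) ≤ i := by exact_mod_cast hij
      linarith)]
    exact path1 h j i hij

/-- mean value inequality -/
lemma path2 {ψ : Z2 → ℝ} {γ : ℝ} (h1 : ∀ f, |d1 ψ f| ≤ γ) (h2 : ∀ f, |d2 ψ f| ≤ γ) (f c : Z2) :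
    |ψ f - ψ c| ≤ (|(f.1 : ℝ) - c.1| + |(f.2 : ℝ) - c.2|) * γ := by
  have a1 := path1' (F := fun i => ψ (i, f.2)) (γ := γ) (fun i => h1 (i, f.2)) c.1 f.1
  have a2 := path1' (F := fun i => ψ (c.1, i)) (γ := γ) (fun i => h2 (c.1, i)) c.2 f.2
  calc |ψ f - ψ c| = |(ψ (f.1, f.2) - ψ (c.1, f.2)) + (ψ (c.1, f.2) - ψ (c.1, c.2))| := by
        congr 1
        ring
    _ ≤ |ψ (f.1, f.2) - ψ (c.1, f.2)| + |ψ (c.1, f.2) - ψ (c.1, c.2)| := abs_add_le _ _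
    _ ≤ |(f.1 : ℝ) - c.1| * γ + |(f.2 : ℝ) - c.2| * γ := add_le_add a1 a2
    _ = _ := by ring

/-- second differences at most `γ` -/
def Sm (γ : ℝ) (φ : Z2 → ℝ) : Prop :=
  ∀ f, |d1 (d1 φ) f| ≤ γ ∧ |d1 (d2 φ) f| ≤ γ ∧ |d2 (d2 φ) f| ≤ γ

lemma d2_d1 (φ : Z2 → ℝ) (f : Z2) : d2 (d1 φ) f = d1 (d2 φ) f := by
  unfold d1 d2
  ring

lemma Sm.dd1 {γ : ℝ} {φ : Z2 → ℝ} (h : Sm γ φ) (f c : Z2) :
    |d1 φ f - d1 φ c| ≤ (|(f.1 : ℝ) - c.1| + |(f.2 : ℝ) - c.2|) * γ :=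
  path2 (fun f => (h f).1) (fun f => by rw [d2_d1]; exact (h f).2.1) f c

lemma Sm.dd2 {γ : ℝ} {φ : Z2 → ℝ} (h : Sm γ φ) (f c : Z2) :
    |d2 φ f - d2 φ c| ≤ (|(f.1 : ℝ) - c.1| + |(f.2 : ℝ) - c.2|) * γ :=
  path2 (fun f => (h f).2.1) (fun f => (h f).2.2) f c

/-- first order expansion at `c` -/
def aff (φ : Z2 → ℝ) (c f : Z2) : ℝ :=
  φ c + d1 φ c * ((f.1 : ℝ) - c.1) + d2 φ c * ((f.2 : ℝ) - c.2)

lemma d1_aff (φ : Z2 → ℝ) (c f : Z2) : d1 (fun g => φ g - aff φ c g) f = d1 φ f - d1 φ c := by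
  unfold aff d1
  push_cast
  ring

lemma d2_aff (φ : Z2 → ℝ) (c f : Z2) : d2 (fun g => φ g - aff φ c g) f = d2 φ f - d2 φ c := by
  unfold aff d2
  push_cast
  ring

/-- discrete Taylor formula in the square of side `s` -/
lemma taylor {γ s : ℝ} {φ : Z2 → ℝ} (h : Sm γ φ) (hγ : 0 ≤ γ) {c f : Z2}
    (h1 : |(f.1 : ℝ) - c.1| ≤ s) (h2 : |(f.2 : ℝ) - c.2| ≤ s) :
    |φ f - aff φ c f| ≤ 4 * s ^ 2 * γ := by
  have hs : 0 ≤ s := (abs_nonneg _).trans h1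
  -- along the first, then the second direction, with truncated functions
  have key : ∀ (F : ℤ → ℝ) (i j : ℤ) (t : ℝ), 0 ≤ t → (∀ k : ℤ, |(k : ℝ) - i| ≤ |(j : ℝ) - i| →
      |F (k + 1) - F k| ≤ t) → |F j - F i| ≤ |(j : ℝ) - i| * t := by
    intro F i j t ht hF
    have e1 : ∀ j, i ≤ j → (∀ k : ℤ, i ≤ k → k < j → |F (k + 1) - F k| ≤ t) →
        |F j - F i| ≤ ((j : ℝ) - i) * t := by
      intro j hj
      induction j, hj using Int.leInduction with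
      | base => simp
      | succ n hn ih =>
        intro hk
        calc |F (n + 1) - F i| = |(F (n + 1) - F n) + (F n - F i)| := by congr 1; ring
          _ ≤ |F (n + 1) - F n| + |F n - F i| := abs_add_le _ _
          _ ≤ t + ((n : ℝ) - i) * t :=
            add_le_add (hk n hn (by omega)) (ih fun k h3 h4 => hk k h3 (by omega))
          _ = (((n + 1 : ℤ) : ℝ) - i) * t := by push_cast; ring
    have e2 : ∀ j, j ≤ i → (∀ k : ℤ, j ≤ k → k < i → |F (k + 1) - F k| ≤ t) →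
        |F i - F j| ≤ ((i : ℝ) - j) * t := by
      intro j hj
      induction j, hj using Int.leInductionDown with
      | base => simp
      | pred n hn ih =>
        intro hk
        have h5 := hk (n - 1) le_rfl (by omega)
        rw [sub_add_cancel] at h5
        calc |F i - F (n - 1)| = |(F i - F n) + (F n - F (n - 1))| := by congr 1; ring
          _ ≤ |F i - F n| + |F n - F (n - 1)| := abs_add_le _ _
          _ ≤ ((i : ℝ) - n) * t + t :=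
            add_le_add (ih fun k h3 h4 => hk k (by omega) h4) h5
          _ = ((i : ℝ) - ((n - 1 : ℤ) : ℝ)) * t := by push_cast; ring
    rcases le_total i j with hij | hij
    · have hr : (i : ℝ) ≤ j := by exact_mod_cast hij
      rw [abs_of_nonneg (show (0 : ℝ) ≤ (j : ℝ) - i by linarith)]
      refine e1 j hij fun k h3 h4 => hF k ?_
      have h3' : (i : ℝ) ≤ k := by exact_mod_cast h3
      have h4' : (k : ℝ) ≤ j := by exact_mod_cast h4.le
      rw [abs_of_nonneg (by linarith), abs_of_nonneg (by linarith)]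
      linarith
    · have hr : (j : ℝ) ≤ i := by exact_mod_cast hij
      rw [abs_sub_comm (F j), abs_sub_comm (j : ℝ),
        abs_of_nonneg (show (0 : ℝ) ≤ (i : ℝ) - j by linarith)]
      refine e2 j hij fun k h3 h4 => hF k ?_
      have h3' : (j : ℝ) ≤ k := by exact_mod_cast h3
      have h4' : (k : ℝ) ≤ i := by exact_mod_cast h4.le
      rw [abs_of_nonpos (by linarith), abs_of_nonpos (by linarith)]
      linarith
  have h0 : φ c - aff φ c c = 0 := by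
    unfold aff
    ring
  have b1 := key (fun i => φ (i, f.2) - aff φ c (i, f.2)) c.1 f.1 (2 * s * γ) (by positivity)
    (fun k hk => by
      have h3 := d1_aff φ c (k, f.2)
      have h4 : (φ (k + 1, f.2) - aff φ c (k + 1, f.2)) - (φ (k, f.2) - aff φ c (k, f.2)) =
          d1 φ (k, f.2) - d1 φ c := h3
      rw [h4]
      refine (h.dd1 (k, f.2) c).trans (mul_le_mul_of_nonneg_right ?_ hγ)
      simp only
      linarith)
  have b2 := key (fun i => φ (c.1, i) - aff φ c (c.1, i)) c.2 f.2 (2 * s * γ) (by positivity)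
    (fun k hk => by
      have h3 := d2_aff φ c (c.1, k)
      have h4 : (φ (c.1, k + 1) - aff φ c (c.1, k + 1)) - (φ (c.1, k) - aff φ c (c.1, k)) =
          d2 φ (c.1, k) - d2 φ c := h3
      rw [h4]
      refine (h.dd2 (c.1, k) c).trans (mul_le_mul_of_nonneg_right ?_ hγ)
      simp only [sub_self, abs_zero, zero_add]
      linarith)
  have b3 : φ f - aff φ c f = ((φ (f.1, f.2) - aff φ c (f.1, f.2)) -
      (φ (c.1, f.2) - aff φ c (c.1, f.2))) + ((φ (c.1, f.2) - aff φ c (c.1, f.2)) -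
      (φ (c.1, c.2) - aff φ c (c.1, c.2))) := by
    have h5 : φ (c.1, c.2) - aff φ c (c.1, c.2) = 0 := h0
    rw [h5]
    ring
  rw [b3]
  refine (abs_add_le _ _).trans ?_
  have b4 : |(f.1 : ℝ) - c.1| * (2 * s * γ) ≤ s * (2 * s * γ) :=
    mul_le_mul_of_nonneg_right h1 (by positivity)
  have b5 : |(f.2 : ℝ) - c.2| * (2 * s * γ) ≤ s * (2 * s * γ) :=
    mul_le_mul_of_nonneg_right h2 (by positivity)
  calc _ ≤ |(f.1 : ℝ) - c.1| * (2 * s * γ) + |(f.2 : ℝ) - c.2| * (2 * s * γ) := add_le_add b1 b2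
    _ ≤ s * (2 * s * γ) + s * (2 * s * γ) := add_le_add b4 b5
    _ = 4 * s ^ 2 * γ := by ring

lemma dr_false (φ : Z2 → ℝ) (p : Z2) : dr φ (p, false) = d2 φ (p.1, p.2 - 1) := by
  unfold dr d2 lf rt
  simp

lemma dr_true (φ : Z2 → ℝ) (p : Z2) : dr φ (p, true) = -d1 φ (p.1 - 1, p.2) := by
  unfold dr d1 lf rt
  simp

lemma dr_add (φ ψ : Z2 → ℝ) (e : Bnd) : dr (fun f => φ f + ψ f) e = dr φ e + dr ψ e := by
  unfold dr
  ring

lemma dr_sub (φ ψ : Z2 → ℝ) (e : Bnd) : dr (fun f => φ f - ψ f) e = dr φ e - dr ψ e := by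
  unfold dr
  ring

lemma dr_sum {ι : Type*} (I : Finset ι) (φ : ι → Z2 → ℝ) (e : Bnd) :
    dr (fun f => ∑ i ∈ I, φ i f) e = ∑ i ∈ I, dr (φ i) e := by
  unfold dr
  rw [Finset.sum_sub_distrib]

/-- the gradient along the bonds varies slowly -/
lemma Sm.ddr {γ : ℝ} {φ : Z2 → ℝ} (h : Sm γ φ) (e : Bnd) (u : Z2) :
    |dr φ (sh u e) - dr φ e| ≤ (|(u.1 : ℝ)| + |(u.2 : ℝ)|) * γ := by
  obtain ⟨p, d⟩ := e
  unfold sh
  cases d
  · simp only [dr_false]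
    have h1 := h.dd2 ((p + u).1, (p + u).2 - 1) (p.1, p.2 - 1)
    refine h1.trans (le_of_eq ?_)
    simp only [Prod.fst_add, Prod.snd_add]
    push_cast
    congr 3 <;> ring
  · simp only [dr_true]
    have h1 := h.dd1 ((p + u).1 - 1, (p + u).2) (p.1 - 1, p.2)
    rw [← abs_neg]
    have h2 : -(-d1 φ ((p + u).1 - 1, (p + u).2) - -d1 φ (p.1 - 1, p.2)) =
        d1 φ ((p + u).1 - 1, (p + u).2) - d1 φ (p.1 - 1, p.2) := by ring
    rw [h2]
    refine h1.trans (le_of_eq ?_)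
    simp only [Prod.fst_add, Prod.snd_add]
    push_cast
    congr 3 <;> ring

/-! ### boxes of bonds -/

/-- bonds with first end point in the box with centre `a` and radius `K` -/
noncomputable def Bx (a : Z2) (K : ℕ) : Finset Bnd :=
  (Finset.Icc (a.1 - K) (a.1 + K) ×ˢ Finset.Icc (a.2 - K) (a.2 + K)) ×ˢ Finset.univ

lemma Bx_card (a : Z2) (K : ℕ) : ((Bx a K).card : ℝ) = 2 * (2 * (K : ℝ) + 1) ^ 2 := by
  unfold Bx
  rw [Finset.card_product, Finset.card_product, Int.card_Icc, Int.card_Icc, Finset.card_univ,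
    Fintype.card_bool]
  have h1 : (a.1 + (K : ℤ) + 1 - (a.1 - K)).toNat = 2 * K + 1 := by omega
  have h2 : (a.2 + (K : ℤ) + 1 - (a.2 - K)).toNat = 2 * K + 1 := by omega
  rw [h1, h2]
  push_cast
  ring

lemma mem_Bx {a : Z2} {K : ℕ} {e : Bnd} : e ∈ Bx a K ↔
    |(e.1.1 : ℝ) - a.1| ≤ K ∧ |(e.1.2 : ℝ) - a.2| ≤ K := by
  unfold Bx
  simp only [Finset.mem_product, Finset.mem_Icc, Finset.mem_univ, and_true, abs_le]
  constructor
  · rintro ⟨⟨h1, h2⟩, h3, h4⟩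
    have h1' : (a.1 : ℝ) - K ≤ e.1.1 := by exact_mod_cast h1
    have h2' : (e.1.1 : ℝ) ≤ a.1 + K := by exact_mod_cast h2
    have h3' : (a.2 : ℝ) - K ≤ e.1.2 := by exact_mod_cast h3
    have h4' : (e.1.2 : ℝ) ≤ a.2 + K := by exact_mod_cast h4
    refine ⟨⟨by linarith, by linarith⟩, by linarith, by linarith⟩
  · rintro ⟨⟨h1, h2⟩, h3, h4⟩
    have h1' : (a.1 : ℝ) - K ≤ e.1.1 := by linarith
    have h2' : (e.1.1 : ℝ) ≤ a.1 + K := by linarith
    have h3' : (a.2 : ℝ) - K ≤ e.1.2 := by linarith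
    have h4' : (e.1.2 : ℝ) ≤ a.2 + K := by linarith
    exact ⟨⟨by exact_mod_cast h1', by exact_mod_cast h2'⟩, by exact_mod_cast h3',
      by exact_mod_cast h4'⟩

/-- sums over any set of a function which vanishes outside a set -/
lemma sum_le_off (S T : Finset Bnd) {F : Bnd → ℝ} (h0 : ∀ e, 0 ≤ F e)
    (h : ∀ e, e ∉ T → F e = 0) : ∑ e ∈ S, F e ≤ ∑ e ∈ T, F e := by
  classical
  calc ∑ e ∈ S, F e = ∑ e ∈ S ∩ T, F e := by
        symm
        refine Finset.sum_subset Finset.inter_subset_left fun e he he' => ?_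
        exact h e fun hT => he' (Finset.mem_inter.2 ⟨he, hT⟩)
    _ ≤ ∑ e ∈ T, F e :=
        Finset.sum_le_sum_of_subset_of_nonneg Finset.inter_subset_right fun e _ _ => h0 e

lemma sum_sq_box (S : Finset Bnd) {B : Bnd → ℝ} {a : Z2} {K : ℕ} {β : ℝ}
    (h : ∀ e, e ∉ Bx a K → B e = 0) (hβ : ∀ e, |B e| ≤ β) :
    ∑ e ∈ S, B e ^ 2 ≤ 2 * (2 * (K : ℝ) + 1) ^ 2 * β ^ 2 := by
  have h1 := sum_le_off S (Bx a K) (F := fun e => B e ^ 2) (fun e => sq_nonneg _)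
    (fun e he => by simp only [h e he]; ring)
  refine h1.trans ?_
  have h2 : ∀ e ∈ Bx a K, B e ^ 2 ≤ β ^ 2 := fun e _ => by
    rw [← sq_abs (B e)]
    exact pow_le_pow_left₀ (abs_nonneg _) (hβ e) 2
  refine (Finset.sum_le_card_nsmul _ _ _ h2).trans (le_of_eq ?_)
  rw [nsmul_eq_mul, Bx_card]

lemma mem_Icc_l {l : ℕ} {u : Z2}
    (hu : u ∈ Finset.Icc ((-(l : ℤ), -(l : ℤ)) : Z2) ((l : ℤ), (l : ℤ))) :
    |(u.1 : ℝ)| ≤ l ∧ |(u.2 : ℝ)| ≤ l := by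
  rw [Finset.mem_Icc, Prod.le_def, Prod.le_def] at hu
  obtain ⟨⟨h1, h2⟩, h3, h4⟩ := hu
  simp only at h1 h2 h3 h4
  have h1' : -(l : ℝ) ≤ u.1 := by exact_mod_cast h1
  have h2' : -(l : ℝ) ≤ u.2 := by exact_mod_cast h2
  have h3' : (u.1 : ℝ) ≤ l := by exact_mod_cast h3
  have h4' : (u.2 : ℝ) ≤ l := by exact_mod_cast h4
  exact ⟨abs_le.2 ⟨h1', h3'⟩, abs_le.2 ⟨h2', h4'⟩⟩

lemma card_Icc_l (l : ℕ) : ((Finset.Icc ((-(l : ℤ), -(l : ℤ)) : Z2) ((l : ℤ), (l : ℤ))).card : ℝ) =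
    (2 * (l : ℝ) + 1) ^ 2 := by
  rw [← Finset.Icc_product_Icc, Finset.card_product, Int.card_Icc]
  have h1 : ((l : ℤ) + 1 - -(l : ℤ)).toNat = 2 * l + 1 := by omega
  rw [h1]
  push_cast
  ring

lemma osc_box (S : Finset Bnd) {B : Bnd → ℝ} {a : Z2} {K l : ℕ} {γ : ℝ}
    (h : ∀ e, e ∉ Bx a K → B e = 0)
    (hγ : ∀ e, ∀ u ∈ Finset.Icc ((-(l : ℤ), -(l : ℤ)) : Z2) ((l : ℤ), (l : ℤ)),
      |B (sh u e) - B e| ≤ γ) :
    osc l S B ≤ 2 * (2 * ((K + l : ℕ) : ℝ) + 1) ^ 2 * ((2 * (l : ℝ) + 1) ^ 2 * γ ^ 2) := by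
  unfold osc
  have h0 : ∀ e, e ∉ Bx a (K + l) → ∀ u ∈ Finset.Icc ((-(l : ℤ), -(l : ℤ)) : Z2)
      ((l : ℤ), (l : ℤ)), B (sh u e) - B e = 0 := by
    intro e he u hu
    obtain ⟨h1, h2⟩ := mem_Icc_l hu
    have hl : (0 : ℝ) ≤ l := Nat.cast_nonneg l
    have h3 : e ∉ Bx a K := by
      intro h3
      apply he
      rw [mem_Bx] at h3 ⊢
      push_cast
      exact ⟨by linarith [h3.1], by linarith [h3.2]⟩
    have h4 : sh u e ∉ Bx a K := by
      intro h4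
      apply he
      rw [mem_Bx] at h4 ⊢
      simp only [sh, Prod.fst_add, Prod.snd_add] at h4
      push_cast at h4 ⊢
      rw [abs_le] at h1 h2
      obtain ⟨h5, h6⟩ := h4
      rw [abs_le] at h5 h6
      refine ⟨abs_le.2 ⟨by linarith, by linarith⟩, abs_le.2 ⟨by linarith, by linarith⟩⟩
    rw [h _ h3, h _ h4, sub_zero]
  have h1 := sum_le_off S (Bx a (K + l))
    (F := fun e => ∑ u ∈ Finset.Icc ((-(l : ℤ), -(l : ℤ)) : Z2) ((l : ℤ), (l : ℤ)),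
      (B (sh u e) - B e) ^ 2) (fun e => Finset.sum_nonneg fun _ _ => sq_nonneg _)
    (fun e he => Finset.sum_eq_zero fun u hu => by rw [h0 e he u hu]; ring)
  refine h1.trans ?_
  have h2 : ∀ e ∈ Bx a (K + l), ∑ u ∈ Finset.Icc ((-(l : ℤ), -(l : ℤ)) : Z2)
      ((l : ℤ), (l : ℤ)), (B (sh u e) - B e) ^ 2 ≤ (2 * (l : ℝ) + 1) ^ 2 * γ ^ 2 := by
    intro e _
    have h3 : ∀ u ∈ Finset.Icc ((-(l : ℤ), -(l : ℤ)) : Z2) ((l : ℤ), (l : ℤ)),
        (B (sh u e) - B e) ^ 2 ≤ γ ^ 2 := fun u hu => by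
      rw [← sq_abs]
      exact pow_le_pow_left₀ (abs_nonneg _) (hγ e u hu) 2
    refine (Finset.sum_le_card_nsmul _ _ _ h3).trans (le_of_eq ?_)
    rw [nsmul_eq_mul, card_Icc_l]
  refine (Finset.sum_le_card_nsmul _ _ _ h2).trans (le_of_eq ?_)
  rw [nsmul_eq_mul, Bx_card]

end Vale.Agent.P159.T1.S.H934
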