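import Vale.Agent.P159.T1.S.H934.Rem
import Vale.Agent.P159.T1.D.H469.Tri

/-!
Lower bound of the variance for a function at one scale, from the free square.
-/

open Filter Topology MeasureTheory

namespace Vale.Agent.P159.T1.S.H934

open Vale.Agent.P159 Vale.Agent.P159.T1.D Vale.Agent.P159.T1.D.H469

/-- the free square -/
def StmtSQ : Prop :=
  ∀ b : ℝ, bCrit ≤ b → ∀ ψ : ℝ × ℝ → ℝ, ContDiff ℝ 2 ψ → HasCompactSupport ψ →
    (∀ z ∈ tsupport ψ, 0 < z.1 ∧ z.1 < 1 ∧ 0 < z.2 ∧ z.2 < 1) → ∀ ε : ℝ, 0 < ε →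
    ∃ n0 : ℕ, ∀ n ≥ n0, ∀ (u : Z2) (U : Finset Z2),
      (∀ f : Z2, u.1 ≤ f.1 → f.1 < u.1 + n → u.2 ≤ f.2 → f.2 < u.2 + n → f ∈ U) →
      helicity b * Dir ψ - ε ≤
        Vr b U (dr fun f => ψ (((f.1 : ℝ) - u.1) / n, ((f.2 : ℝ) - u.2) / n))

lemma sh_inj (u : Z2) : Function.Injective (sh u) := by
  intro e e' h
  unfold sh at h
  rw [Prod.mk.injEq] at h
  exact Prod.ext (by simpa using h.1) h.2

lemma dr_sh (ψ : ℝ × ℝ → ℝ) (n : ℕ) (u : Z2) (e : Bnd) :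
    dr (fun f => ψ (zz n u f)) e = dr (smp ψ n (0, 0)) (sh (-u) e) := by
  obtain ⟨⟨i, j⟩, d⟩ := e
  unfold dr smp zz sh lf rt
  cases d
  · simp [sub_eq_add_neg]
    ring_nf
  · simp [sub_eq_add_neg]
    ring_nf

lemma lat_shift (hLat : StmtLat) {ψ : ℝ × ℝ → ℝ} (hψ : ContDiff ℝ 2 ψ)
    (hc : HasCompactSupport ψ) (l : ℕ) {ε : ℝ} (hε : 0 < ε) : ∃ n0 : ℕ, ∀ n ≥ n0,
    ∀ (u : Z2) (S : Finset Bnd), ∑ e ∈ S, dr (fun f => ψ (zz n u f)) e ^ 2 ≤ Dir ψ + ε ∧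
      osc l S (dr fun f => ψ (zz n u f)) ≤ ε := by
  classical
  obtain ⟨L0, hL⟩ := hLat ψ hψ hc 0
  obtain ⟨n1, h1⟩ := hL L0 le_rfl l ε hε
  obtain ⟨n2, h2⟩ := hL (L0 + 1) (by omega) l ε hε
  refine ⟨max l (max n1 n2), fun n hn u S => ?_⟩
  have hn1 : n1 ≤ n := by omega
  have hn2 : n2 ≤ n := by omega
  have hln : l ≤ n := by omega
  obtain ⟨a1, -, -, -⟩ := h1 n hn1 (0, 0) (by simp) (by simp)
  obtain ⟨-, b2, b3, -⟩ := h2 n hn2 (0, 0) (by simp) (by simp)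
  set B0 : Bnd → ℝ := dr (smp ψ n (0, 0)) with hB0
  have e1 : ∀ e, dr (fun f => ψ (zz n u f)) e = B0 (sh (-u) e) := fun e => dr_sh ψ n u e
  have off : ∀ e, e ∉ Sb (L0 + 1) n → ∀ w ∈ Finset.Icc ((-(l : ℤ), -(l : ℤ)) : Z2)
      ((l : ℤ), (l : ℤ)), sh w e ∉ Sb L0 n := by
    intro e he w hw h3
    apply he
    rw [Finset.mem_Icc, Prod.le_def, Prod.le_def] at hw
    obtain ⟨⟨w1, w2⟩, w3, w4⟩ := hw
    simp only at w1 w2 w3 w4
    unfold Sb sh at h3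
    unfold Sb
    simp only [Finset.mem_product, Finset.mem_Icc, Finset.mem_univ, and_true, Prod.fst_add,
      Prod.snd_add] at h3 ⊢
    have h5 : (((L0 + 1) * n : ℕ) : ℤ) = ((L0 * n : ℕ) : ℤ) + n := by
      push_cast
      ring
    rw [h5]
    omega
  have off0 : ∀ e, e ∉ Sb (L0 + 1) n → e ∉ Sb L0 n := by
    intro e he
    have h3 := off e he (0, 0) (by
      rw [Finset.mem_Icc, Prod.le_def, Prod.le_def]
      simp)
    have h4 : sh (0, 0) e = e := by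
      unfold sh
      exact Prod.ext (by simp) rfl
    rwa [h4] at h3
  constructor
  · have h3 : ∑ e ∈ S, dr (fun f => ψ (zz n u f)) e ^ 2 =
        ∑ e ∈ S.image (sh (-u)), B0 e ^ 2 := by
      rw [Finset.sum_image fun x _ y _ h => sh_inj (-u) h]
      exact Finset.sum_congr rfl fun e _ => by rw [e1 e]
    rw [h3]
    have h4 := sum_le_off (S.image (sh (-u))) (Sb (L0 + 1) n) (F := fun e => B0 e ^ 2)
      (fun e => sq_nonneg _) (fun e he => by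
        have := a1 e (off0 e he)
        simp only [this]
        ring)
    have h5 := (abs_le.1 b2).2
    linarith
  · refine le_trans ?_ b3
    unfold osc
    have h3 : ∑ e ∈ S, ∑ w ∈ Finset.Icc ((-(l : ℤ), -(l : ℤ)) : Z2) ((l : ℤ), (l : ℤ)),
        (dr (fun f => ψ (zz n u f)) (sh w e) - dr (fun f => ψ (zz n u f)) e) ^ 2 =
        ∑ e ∈ S.image (sh (-u)), ∑ w ∈ Finset.Icc ((-(l : ℤ), -(l : ℤ)) : Z2)
          ((l : ℤ), (l : ℤ)), (B0 (sh w e) - B0 e) ^ 2 := by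
      rw [Finset.sum_image fun x _ y _ h => sh_inj (-u) h]
      refine Finset.sum_congr rfl fun e _ => Finset.sum_congr rfl fun w _ => ?_
      rw [e1, e1]
      congr 3
      unfold sh
      exact Prod.ext (by simp only; abel) rfl
    rw [h3]
    refine sum_le_off _ _ (fun e => Finset.sum_nonneg fun _ _ => sq_nonneg _) fun e he => ?_
    refine Finset.sum_eq_zero fun w hw => ?_
    rw [a1 _ (off e he w hw), a1 e (off0 e he)]
    ring

/-- the defect of the test functions -/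
lemma Df_tf (hSQ : StmtSQ) (hLat : StmtLat) {b : ℝ} (hb : bCrit ≤ b) (hY : 0 ≤ helicity b)
    {ε1 C : ℝ} (hε1 : 0 ≤ ε1) (hC : 0 ≤ C) (l : ℕ) {ε3 : ℝ} (hε3 : 0 < ε3) :
    ∃ n0 : ℕ, ∀ n ≥ n0, ∀ (u : Z2) (U : Finset Z2) (S : Finset Bnd),
      (∀ f : Z2, u.1 ≤ f.1 → f.1 < u.1 + n → u.2 ≤ f.2 → f.2 < u.2 + n → f ∈ U) →
      ∀ k : Fin 3, Df b (helicity b + ε1) C l U S (dr fun f => tf k (zz n u f)) ≤
        ε1 * Dir (tf k) + ε3 ∧ osc l S (dr fun f => tf k (zz n u f)) ≤ ε3 := by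
  set ε' : ℝ := ε3 / (helicity b + ε1 + C + 1) with hε'
  have hpos : 0 < helicity b + ε1 + C + 1 := by linarith
  have hε'0 : 0 < ε' := div_pos hε3 hpos
  have hε'1 : (helicity b + ε1 + C + 1) * ε' = ε3 := by
    rw [hε']
    field_simp
  have hk : ∀ k : Fin 3, ∃ n0 : ℕ, ∀ n ≥ n0, ∀ (u : Z2) (U : Finset Z2) (S : Finset Bnd),
      (∀ f : Z2, u.1 ≤ f.1 → f.1 < u.1 + n → u.2 ≤ f.2 → f.2 < u.2 + n → f ∈ U) →
      Df b (helicity b + ε1) C l U S (dr fun f => tf k (zz n u f)) ≤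
        ε1 * Dir (tf k) + ε3 ∧ osc l S (dr fun f => tf k (zz n u f)) ≤ ε3 := by
    intro k
    obtain ⟨n1, h1⟩ := hSQ b hb (tf k) (tf_contDiff k) (tf_compact k) (fun z hz => tf_open hz)
      ε' hε'0
    obtain ⟨n2, h2⟩ := lat_shift hLat (tf_contDiff k) (tf_compact k) l hε'0
    refine ⟨max n1 n2, fun n hn u U S hU => ?_⟩
    have a1 := h1 n (by omega) u U hU
    obtain ⟨a2, a3⟩ := h2 n (by omega) u S
    have hle : ε' ≤ ε3 := by
      have : ε' * 1 ≤ ε' * (helicity b + ε1 + C + 1) :=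
        mul_le_mul_of_nonneg_left (by linarith) hε'0.le
      linarith
    refine ⟨?_, a3.trans hle⟩
    rw [Df_eq]
    unfold Nf
    have a4 : (helicity b + ε1) * ∑ e ∈ S, dr (fun f => tf k (zz n u f)) e ^ 2 ≤
        (helicity b + ε1) * (Dir (tf k) + ε') := mul_le_mul_of_nonneg_left a2 (by linarith)
    have a5 : C * osc l S (dr fun f => tf k (zz n u f)) ≤ C * ε' :=
      mul_le_mul_of_nonneg_left a3 hC
    have a6 : helicity b * Dir (tf k) - ε' ≤ Vr b U (dr fun f => tf k (zz n u f)) := a1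
    nlinarith
  choose n0 h0 using hk
  refine ⟨max (n0 0) (max (n0 1) (n0 2)), fun n hn u U S hU k => ?_⟩
  refine h0 k n ?_ u U S hU
  fin_cases k
  · exact (le_max_left _ _).trans hn
  · exact ((le_max_left _ _).trans (le_max_right _ _)).trans hn
  · exact ((le_max_right _ _).trans (le_max_right _ _)).trans hn

lemma Df_smul {b Y C : ℝ} {l : ℕ} {U : Finset Z2} {S : Finset Bnd} (c : ℝ) (B : Bnd → ℝ) :
    Df b Y C l U S (fun e => c * B e) = c ^ 2 * Df b Y C l U S B := by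
  rw [Df_eq, Df_eq, Nf_smul, Vr_smul]
  ring

lemma osc_sum_le (l : ℕ) (S : Finset Bnd) {ι : Type*} (I : Finset ι) (B : ι → Bnd → ℝ) :
    osc l S (fun e => ∑ i ∈ I, B i e) ≤ (I.card : ℝ) * ∑ i ∈ I, osc l S (B i) := by
  unfold osc
  have h1 : ∀ e w, (∑ i ∈ I, B i (sh w e) - ∑ i ∈ I, B i e) ^ 2 ≤
      (I.card : ℝ) * ∑ i ∈ I, (B i (sh w e) - B i e) ^ 2 := fun e w => by
    rw [← Finset.sum_sub_distrib]
    exact sq_sum_le_card_mul_sum_sq
  calc _ ≤ ∑ e ∈ S, ∑ w ∈ Finset.Icc ((-(l : ℤ), -(l : ℤ)) : Z2) ((l : ℤ), (l : ℤ)),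
        (I.card : ℝ) * ∑ i ∈ I, (B i (sh w e) - B i e) ^ 2 :=
        Finset.sum_le_sum fun e _ => Finset.sum_le_sum fun w _ => h1 e w
    _ = (I.card : ℝ) * ∑ e ∈ S, ∑ w ∈ Finset.Icc ((-(l : ℤ), -(l : ℤ)) : Z2)
          ((l : ℤ), (l : ℤ)), ∑ i ∈ I, (B i (sh w e) - B i e) ^ 2 := by
        simp only [Finset.mul_sum]
    _ = _ := by
        congr 1
        symm
        rw [Finset.sum_comm]
        exact Finset.sum_congr rfl fun e _ => Finset.sum_comm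

lemma Df_add_le {b Y C : ℝ} {l : ℕ} {U : Finset Z2} {S : Finset Bnd}
    (H : ∀ B : Bnd → ℝ, (∀ e, e ∉ S → B e = 0) →
      Vr b U B ≤ Y * ∑ e ∈ S, B e ^ 2 + C * osc l S B) (hb : 0 ≤ b) {B B' : Bnd → ℝ}
    (hB : ∀ e, e ∉ S → B e = 0) (hB' : ∀ e, e ∉ S → B' e = 0) :
    Df b Y C l U S (fun e => B e + B' e) ≤ 2 * Df b Y C l U S B + 2 * Df b Y C l U S B' := by
  have h1 := sqrt_Df_add H hb hB hB'
  have h2 := Df_nonneg H hB
  have h3 := Df_nonneg H hB'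
  have h4 : 0 ≤ Df b Y C l U S (fun e => B e + B' e) :=
    Df_nonneg H fun e he => by rw [hB e he, hB' e he, add_zero]
  have h5 := Real.sq_sqrt h2
  have h6 := Real.sq_sqrt h3
  have h7 := Real.sq_sqrt h4
  have h8 := pow_le_pow_left₀ (Real.sqrt_nonneg _) h1 2
  nlinarith [sq_nonneg (Real.sqrt (Df b Y C l U S B) - Real.sqrt (Df b Y C l U S B'))]

/-- the main pieces -/
noncomputable def mn (φ : Z2 → ℝ) (s : ℕ) (u f : Z2) : ℝ := bu (zz s u f) * aff φ u f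

/-- coefficients of a main piece -/
noncomputable def cf3 (φ : Z2 → ℝ) (s : ℕ) (u : Z2) (k : Fin 3) : ℝ :=
  if k = 0 then φ u else if k = 1 then s * d1 φ u else s * d2 φ u

lemma dr_mn (φ : Z2 → ℝ) {s : ℕ} (hs : 0 < s) (u : Z2) :
    dr (mn φ s u) = fun e => ∑ k : Fin 3, cf3 φ s u k * dr (fun f => tf k (zz s u f)) e := by
  funext e
  have h1 : mn φ s u = fun f => ∑ k : Fin 3, cf3 φ s u k * tf k (zz s u f) := by
    funext f
    exact bu_aff φ hs u f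
  rw [h1, dr_sum]
  refine Finset.sum_congr rfl fun k _ => ?_
  unfold dr
  ring

lemma main_bd {b Y C : ℝ} (hb : 0 ≤ b) {l : ℕ} {U : Finset Z2} {S : Finset Bnd}
    (H : ∀ B : Bnd → ℝ, (∀ e, e ∉ S → B e = 0) →
      Vr b U B ≤ Y * ∑ e ∈ S, B e ^ 2 + C * osc l S B) {φ : Z2 → ℝ} {s : ℕ} (hs : 0 < s) {u : Z2}
    {M β β' : ℝ} (hc : ∀ k, |cf3 φ s u k| ≤ M)
    (hS : ∀ k, ∀ e, e ∉ S → dr (fun f => tf k (zz s u f)) e = 0)
    (hβ : ∀ k, Df b Y C l U S (dr fun f => tf k (zz s u f)) ≤ β ∧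
      osc l S (dr fun f => tf k (zz s u f)) ≤ β') :
    Df b Y C l U S (dr (mn φ s u)) ≤ 9 * M ^ 2 * β ∧ osc l S (dr (mn φ s u)) ≤ 9 * M ^ 2 * β' := by
  have hM : ∀ k, cf3 φ s u k ^ 2 ≤ M ^ 2 := fun k => by
    rw [← sq_abs]
    exact pow_le_pow_left₀ (abs_nonneg _) (hc k) 2
  rw [dr_mn φ hs u]
  constructor
  · have h1 := Df_sum_le H hb (Finset.univ : Finset (Fin 3))
      (B := fun k e => cf3 φ s u k * dr (fun f => tf k (zz s u f)) e)
      (fun k _ e he => by rw [hS k e he, mul_zero])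
    refine h1.trans ?_
    rw [Finset.card_univ, Fintype.card_fin]
    have h2 : ∀ k : Fin 3, Df b Y C l U S (fun e => cf3 φ s u k *
        dr (fun f => tf k (zz s u f)) e) ≤ M ^ 2 * β := fun k => by
      rw [Df_smul]
      have h3 : 0 ≤ Df b Y C l U S (dr fun f => tf k (zz s u f)) := Df_nonneg H (hS k)
      exact mul_le_mul (hM k) (hβ k).1 h3 (sq_nonneg _)
    have h4 := Finset.sum_le_card_nsmul (Finset.univ : Finset (Fin 3)) _ _ fun k _ => h2 k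
    rw [Finset.card_univ, Fintype.card_fin, nsmul_eq_mul] at h4
    push_cast at h4 ⊢
    linarith
  · have h1 := osc_sum_le l S (Finset.univ : Finset (Fin 3))
      (fun k e => cf3 φ s u k * dr (fun f => tf k (zz s u f)) e)
    refine h1.trans ?_
    rw [Finset.card_univ, Fintype.card_fin]
    have h2 : ∀ k : Fin 3, osc l S (fun e => cf3 φ s u k *
        dr (fun f => tf k (zz s u f)) e) ≤ M ^ 2 * β' := fun k => by
      rw [osc_smul]
      exact mul_le_mul (hM k) (hβ k).2 (osc_nonneg _ _ _) (sq_nonneg _)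
    have h4 := Finset.sum_le_card_nsmul (Finset.univ : Finset (Fin 3)) _ _ fun k _ => h2 k
    rw [Finset.card_univ, Fintype.card_fin, nsmul_eq_mul] at h4
    push_cast at h4 ⊢
    linarith

/-- hypotheses on a function at scale `n` around `a` -/
structure Reg (M δ : ℝ) (n : ℕ) (a : Z2) (U : Finset Z2) (φ : Z2 → ℝ) : Prop where
  supp : ∀ f, φ f ≠ 0 → |(f.1 : ℝ) - a.1| ≤ M * n ∧ |(f.2 : ℝ) - a.2| ≤ M * n
  room : ∀ f, φ f ≠ 0 → ∀ g : Z2, |(g.1 : ℝ) - f.1| ≤ δ * n → |(g.2 : ℝ) - f.2| ≤ δ * n → g ∈ U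
  bd0 : ∀ f, |φ f| ≤ M
  bd1 : ∀ f, |d1 φ f| ≤ M / n ∧ |d2 φ f| ≤ M / n
  bd2 : Sm (M / (n : ℝ) ^ 2) φ

lemma dr_supp {φ : Z2 → ℝ} {U : Finset Z2} (h : ∀ f, φ f ≠ 0 → f ∈ U) (e : Bnd)
    (he : e ∉ bd U) : dr φ e = 0 := by
  have h1 : rt e ∉ U ∧ lf e ∉ U := by
    constructor
    · intro h2
      apply he
      unfold bd
      rw [Finset.mem_biUnion]
      refine ⟨_, h2, ?_⟩
      obtain ⟨⟨i, j⟩, d⟩ := e
      cases d <;> simp [sides, rt]
    · intro h2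
      apply he
      unfold bd
      rw [Finset.mem_biUnion]
      refine ⟨_, h2, ?_⟩
      obtain ⟨⟨i, j⟩, d⟩ := e
      cases d <;> simp [sides, lf]
  have h2 : φ (rt e) = 0 := by
    by_contra h3
    exact h1.1 (h _ h3)
  have h3 : φ (lf e) = 0 := by
    by_contra h3
    exact h1.2 (h _ h3)
  unfold dr
  rw [h2, h3, sub_zero]

lemma dr_box {φ : Z2 → ℝ} {a : Z2} {K : ℕ} (h : ∀ f, φ f ≠ 0 → |(f.1 : ℝ) - a.1| ≤ K ∧
    |(f.2 : ℝ) - a.2| ≤ K) (e : Bnd) (he : e ∉ Bx a (K + 1)) : dr φ e = 0 := by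
  have key : ∀ f : Z2, |(f.1 : ℝ) - e.1.1| ≤ 1 → |(f.2 : ℝ) - e.1.2| ≤ 1 → φ f = 0 := by
    intro f h1 h2
    by_contra h3
    obtain ⟨h4, h5⟩ := h f h3
    apply he
    rw [mem_Bx]
    rw [abs_le] at h1 h2 h4 h5
    push_cast
    exact ⟨abs_le.2 ⟨by linarith, by linarith⟩, abs_le.2 ⟨by linarith, by linarith⟩⟩
  obtain ⟨⟨l1, l2⟩, l3, l4⟩ := lf_cases e
  obtain ⟨⟨r1, r2⟩, r3, r4⟩ := rt_cases e
  have c : ∀ x y : ℤ, y - 1 ≤ x → x ≤ y → |(x : ℝ) - y| ≤ 1 := by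
    intro x y h1 h2
    have h1' : (y : ℝ) - 1 ≤ x := by exact_mod_cast h1
    have h2' : (x : ℝ) ≤ y := by exact_mod_cast h2
    rw [abs_le]
    constructor <;> linarith
  unfold dr
  rw [key (lf e) (c _ _ l1 l2) (c _ _ l3 l4), key (rt e) (c _ _ r1 r2) (c _ _ r3 r4), sub_zero]

end Vale.Agent.P159.T1.S.H934
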