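import Vale.Agent.P159.T1.S.H934.Loc

/-!
Lower bound of the variance for a function at one scale: conclusion.
-/

open Filter Topology MeasureTheory

namespace Vale.Agent.P159.T1.S.H934

open Vale.Agent.P159 Vale.Agent.P159.T1.D Vale.Agent.P159.T1.D.H469

section

open Classical

/-- the active squares -/
noncomputable def act (φ : Z2 → ℝ) (a : Z2) (p I : ℕ) : Finset Z2 :=
  (Finset.Icc (-(I : ℤ)) (I : ℤ) ×ˢ Finset.Icc (-(I : ℤ)) (I : ℤ)).filter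
    fun i => ∃ f, bu (zz (4 * p) (cor a p i) f) ≠ 0 ∧ φ f ≠ 0

lemma act_ex {φ : Z2 → ℝ} {a : Z2} {p I : ℕ} {i : Z2} (hi : i ∈ act φ a p I) :
    ∃ f, bu (zz (4 * p) (cor a p i) f) ≠ 0 ∧ φ f ≠ 0 := (Finset.mem_filter.1 hi).2

/-- the number of squares -/
noncomputable def nsq (I : ℕ) : ℝ := (2 * (I : ℝ) + 1) ^ 2

lemma nsq_nonneg (I : ℕ) : 0 ≤ nsq I := by
  unfold nsq
  positivity

lemma act_card (φ : Z2 → ℝ) (a : Z2) (p I : ℕ) : ((act φ a p I).card : ℝ) ≤ nsq I := by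
  have h1 : (act φ a p I).card ≤
      (Finset.Icc (-(I : ℤ)) (I : ℤ) ×ˢ Finset.Icc (-(I : ℤ)) (I : ℤ)).card :=
    Finset.card_filter_le _ _
  rw [Finset.card_product, Int.card_Icc] at h1
  have h2 : ((I : ℤ) + 1 - -(I : ℤ)).toNat = 2 * I + 1 := by omega
  rw [h2] at h1
  unfold nsq
  have h3 : ((act φ a p I).card : ℝ) ≤ (((2 * I + 1) * (2 * I + 1) : ℕ) : ℝ) := by
    exact_mod_cast h1
  refine h3.trans (le_of_eq ?_)
  push_cast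
  ring

/-- the remainder -/
noncomputable def rm (φ : Z2 → ℝ) (a : Z2) (p I : ℕ) (f : Z2) : ℝ :=
  ∑ i ∈ act φ a p I, bu (zz (4 * p) (cor a p i) f) * (φ f - aff φ (cor a p i) f)

/-- decomposition -/
lemma decomp {φ : Z2 → ℝ} {a : Z2} {p I : ℕ} (hp : 1 ≤ p)
    (h : ∀ f, φ f ≠ 0 → |(f.1 : ℝ) - a.1| ≤ p * ((I : ℝ) - 2) ∧
      |(f.2 : ℝ) - a.2| ≤ p * ((I : ℝ) - 2)) (f : Z2) :
    φ f = ∑ i ∈ act φ a p I, mn φ (4 * p) (cor a p i) f + rm φ a p I f := by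
  unfold rm
  rw [← Finset.sum_add_distrib]
  have h1 : ∀ i ∈ act φ a p I, mn φ (4 * p) (cor a p i) f +
      bu (zz (4 * p) (cor a p i) f) * (φ f - aff φ (cor a p i) f) =
      bu (zz (4 * p) (cor a p i) f) * φ f := fun i _ => by
    unfold mn
    ring
  rw [Finset.sum_congr rfl h1, ← Finset.sum_mul]
  by_cases h0 : φ f = 0
  · rw [h0, mul_zero]
  · obtain ⟨h2, h3⟩ := h f h0
    have h4 : ∑ i ∈ act φ a p I, bu (zz (4 * p) (cor a p i) f) = 1 := by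
      rw [← bu_sum hp h2 h3]
      unfold act
      rw [Finset.sum_filter]
      refine Finset.sum_congr rfl fun i _ => ?_
      by_cases h5 : bu (zz (4 * p) (cor a p i) f) = 0
      · rw [h5, ite_self]
      · rw [if_pos ⟨f, h5, h0⟩]
    rw [h4, one_mul]

lemma dr_decomp {φ : Z2 → ℝ} {a : Z2} {p I : ℕ} (hp : 1 ≤ p)
    (h : ∀ f, φ f ≠ 0 → |(f.1 : ℝ) - a.1| ≤ p * ((I : ℝ) - 2) ∧
      |(f.2 : ℝ) - a.2| ≤ p * ((I : ℝ) - 2)) (e : Bnd) :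
    dr φ e = (∑ i ∈ act φ a p I, dr (mn φ (4 * p) (cor a p i)) e) + dr (rm φ a p I) e := by
  have h1 : φ = fun f => ∑ i ∈ act φ a p I, mn φ (4 * p) (cor a p i) f + rm φ a p I f := by
    funext f
    exact decomp hp h f
  conv_lhs => rw [h1]
  rw [dr_add, dr_sum]

end

lemma Dir_nonneg (φ : ℝ × ℝ → ℝ) : 0 ≤ Dir φ :=
  MeasureTheory.integral_nonneg fun _ => add_nonneg (sq_nonneg _) (sq_nonneg _)

section geom

variable {M : ℕ} {δ : ℝ} {n p I k : ℕ} {a : Z2} {U : Finset Z2} {φ : Z2 → ℝ}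

lemma act_pt (hp : 1 ≤ p) {i : Z2} (hi : i ∈ act φ a p I) : ∃ f0, φ f0 ≠ 0 ∧
    (((cor a p i).1 : ℝ) + 1 < f0.1 ∧ (f0.1 : ℝ) + 1 < (cor a p i).1 + 4 * p) ∧
    (((cor a p i).2 : ℝ) + 1 < f0.2 ∧ (f0.2 : ℝ) + 1 < (cor a p i).2 + 4 * p) := by
  obtain ⟨f0, h1, h2⟩ := act_ex hi
  have h3 := bu_zz_mem (by omega) h1
  push_cast at h3
  exact ⟨f0, h2, h3⟩

/-- the active squares are in the domain -/
lemma act_room (hφ : Reg M δ n a U φ) (hp : 1 ≤ p) (hs : 4 * (p : ℝ) ≤ δ * n) {i : Z2}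
    (hi : i ∈ act φ a p I) {g : Z2} (g1 : ((cor a p i).1 : ℝ) ≤ g.1)
    (g2 : (g.1 : ℝ) ≤ (cor a p i).1 + 4 * p) (g3 : ((cor a p i).2 : ℝ) ≤ g.2)
    (g4 : (g.2 : ℝ) ≤ (cor a p i).2 + 4 * p) : g ∈ U := by
  obtain ⟨f0, hf0, ⟨h1, h2⟩, h3, h4⟩ := act_pt hp hi
  refine hφ.room f0 hf0 g ?_ ?_
  · rw [abs_le]
    constructor <;> linarith
  · rw [abs_le]
    constructor <;> linarith

lemma act_bu (hφ : Reg M δ n a U φ) (hp : 1 ≤ p) (hs : 4 * (p : ℝ) ≤ δ * n) {i : Z2}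
    (hi : i ∈ act φ a p I) {f : Z2} (hf : bu (zz (4 * p) (cor a p i) f) ≠ 0) : f ∈ U := by
  obtain ⟨⟨h1, h2⟩, h3, h4⟩ := bu_zz_mem (by omega) hf
  push_cast at h2 h4
  exact act_room hφ hp hs hi (by linarith) (by linarith) (by linarith) (by linarith)

lemma mn_off (hφ : Reg M δ n a U φ) (hp : 1 ≤ p) (hs : 4 * (p : ℝ) ≤ δ * n) {i : Z2}
    (hi : i ∈ act φ a p I) (e : Bnd) (he : e ∉ bd U) : dr (mn φ (4 * p) (cor a p i)) e = 0 := by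
  refine dr_supp (fun f hf => act_bu hφ hp hs hi fun h => hf ?_) e he
  unfold mn
  rw [h, zero_mul]

lemma rm_pt {f : Z2} (hf : rm φ a p I f ≠ 0) :
    ∃ i ∈ act φ a p I, bu (zz (4 * p) (cor a p i) f) ≠ 0 := by
  by_contra h1
  push Not at h1
  apply hf
  unfold rm
  exact Finset.sum_eq_zero fun i hi => by rw [h1 i hi, zero_mul]

lemma rm_off (hφ : Reg M δ n a U φ) (hp : 1 ≤ p) (hs : 4 * (p : ℝ) ≤ δ * n) (e : Bnd)
    (he : e ∉ bd U) : dr (rm φ a p I) e = 0 := by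
  refine dr_supp (fun f hf => ?_) e he
  obtain ⟨i, hi, h1⟩ := rm_pt hf
  exact act_bu hφ hp hs hi h1

lemma rm_box (hφ : Reg M δ n a U φ) (hp : 1 ≤ p) (f : Z2) (hf : rm φ a p I f ≠ 0) :
    |(f.1 : ℝ) - a.1| ≤ ((M * n + 4 * p : ℕ) : ℝ) ∧
      |(f.2 : ℝ) - a.2| ≤ ((M * n + 4 * p : ℕ) : ℝ) := by
  obtain ⟨i, hi, h1⟩ := rm_pt hf
  obtain ⟨⟨h2, h3⟩, h4, h5⟩ := bu_zz_mem (by omega) h1
  obtain ⟨f0, hf0, ⟨h6, h7⟩, h8, h9⟩ := act_pt hp hi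
  obtain ⟨h10, h11⟩ := hφ.supp f0 hf0
  push_cast at h3 h5 ⊢
  rw [abs_le] at h10 h11
  constructor
  · rw [abs_le]
    constructor <;> linarith
  · rw [abs_le]
    constructor <;> linarith

lemma cf3_le (hφ : Reg M δ n a U φ) (hn : 1 ≤ n) (hs : 4 * (p : ℝ) ≤ n) (u : Z2) (j : Fin 3) :
    |cf3 φ (4 * p) u j| ≤ M := by
  have hn0 : (0 : ℝ) < n := by exact_mod_cast hn
  have hd : ∀ x : ℝ, |x| ≤ M / n → |((4 * p : ℕ) : ℝ) * x| ≤ M := by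
    intro x hx
    rw [abs_mul, abs_of_nonneg (Nat.cast_nonneg _)]
    push_cast
    calc 4 * (p : ℝ) * |x| ≤ n * (M / n) := mul_le_mul hs hx (abs_nonneg _) hn0.le
      _ = M := by field_simp
  unfold cf3
  split_ifs
  · exact hφ.bd0 _
  · exact hd _ (hφ.bd1 _).1
  · exact hd _ (hφ.bd1 _).2

/-- oscillation of `dr φ` -/
lemma osc_phi (hφ : Reg M δ n a U φ) {l : ℕ} (hnl : l + 1 ≤ n) (S : Finset Bnd) :
    osc l S (dr φ) ≤ 8 * (2 * (M : ℝ) + 5) ^ 2 * (2 * (l : ℝ) + 1) ^ 2 * (l : ℝ) ^ 2 *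
      (M : ℝ) ^ 2 / (n : ℝ) ^ 2 := by
  have hn0 : (0 : ℝ) < n := by
    have : 0 < n := by omega
    exact_mod_cast this
  have h1 : ∀ f, φ f ≠ 0 → |(f.1 : ℝ) - a.1| ≤ ((M * n : ℕ) : ℝ) ∧
      |(f.2 : ℝ) - a.2| ≤ ((M * n : ℕ) : ℝ) := fun f hf => by
    push_cast
    exact hφ.supp f hf
  have h2 := osc_box S (B := dr φ) (a := a) (K := M * n + 1) (l := l)
    (γ := 2 * l * (M / (n : ℝ) ^ 2)) (dr_box h1) (fun e u hu => by
      obtain ⟨u1, u2⟩ := mem_Icc_l hu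
      refine (hφ.bd2.ddr e u).trans (mul_le_mul_of_nonneg_right (by linarith) (by positivity)))
  refine h2.trans ?_
  have h3 : 2 * ((M * n + 1 + l : ℕ) : ℝ) + 1 ≤ (2 * (M : ℝ) + 5) * n := by
    have h4 : (l : ℝ) + 1 ≤ n := by exact_mod_cast hnl
    push_cast
    linarith [Nat.cast_nonneg (α := ℝ) l]
  have h4 : (2 * ((M * n + 1 + l : ℕ) : ℝ) + 1) ^ 2 ≤ ((2 * (M : ℝ) + 5) * n) ^ 2 :=
    pow_le_pow_left₀ (by positivity) h3 2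
  calc 2 * (2 * ((M * n + 1 + l : ℕ) : ℝ) + 1) ^ 2 *
        ((2 * (l : ℝ) + 1) ^ 2 * (2 * l * (M / (n : ℝ) ^ 2)) ^ 2)
      ≤ 2 * ((2 * (M : ℝ) + 5) * n) ^ 2 *
        ((2 * (l : ℝ) + 1) ^ 2 * (2 * l * (M / (n : ℝ) ^ 2)) ^ 2) :=
        mul_le_mul_of_nonneg_right (mul_le_mul_of_nonneg_left h4 zero_le_two) (by positivity)
    _ = _ := by
        field_simp
        ring

/-- the constant in the bound of the remainder -/
noncomputable def cA (K : ℝ) (M : ℕ) : ℝ :=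
  2 * ((2 * (M : ℝ) + 11) * (100 * (2 + 4 * K) * M)) ^ 2

/-- energy of the remainder -/
lemma rm_en {K : ℝ} (hK0 : 0 ≤ K) (hK : ∀ z w : ℝ × ℝ, |bu z - bu w| ≤ K * ‖z - w‖)
    (hφ : Reg M δ n a U φ) (hn : 1 ≤ n) (hp : 1 ≤ p) (hk : 0 < k) (hs : 4 * (p : ℝ) ≤ n)
    (hpn : (p : ℝ) ≤ n / k) (S : Finset Bnd) :
    ∑ e ∈ S, dr (rm φ a p I) e ^ 2 ≤ cA K M / (k : ℝ) ^ 2 := by
  have hn0 : (0 : ℝ) < n := by exact_mod_cast hn
  have hk0 : (0 : ℝ) < k := by exact_mod_cast hk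
  have h2 := sum_sq_box S (B := dr (rm φ a p I)) (a := a) (K := M * n + 4 * p + 1)
    (β := 25 * ((2 + 4 * K) * ((4 * p : ℕ) * (M / (n : ℝ) ^ 2)))) (dr_box (rm_box hφ hp))
    (rem_sum hφ.bd2 (by positivity) hp hK hK0 a (act φ a p I))
  refine h2.trans ?_
  have h3 : 2 * ((M * n + 4 * p + 1 : ℕ) : ℝ) + 1 ≤ (2 * (M : ℝ) + 11) * n := by
    have h4 : (1 : ℝ) ≤ n := by exact_mod_cast hn
    push_cast
    linarith
  have h4 : 25 * ((2 + 4 * K) * (((4 * p : ℕ) : ℝ) * (M / (n : ℝ) ^ 2))) ≤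
      100 * (2 + 4 * K) * M / (k * n) := by
    have h5 : (p : ℝ) * (M / (n : ℝ) ^ 2) ≤ n / k * (M / (n : ℝ) ^ 2) :=
      mul_le_mul_of_nonneg_right hpn (by positivity)
    have h6 : (n : ℝ) / k * (M / (n : ℝ) ^ 2) = M / (k * n) := by
      field_simp
    rw [h6] at h5
    push_cast
    calc 25 * ((2 + 4 * K) * (4 * (p : ℝ) * (M / (n : ℝ) ^ 2)))
        = 100 * (2 + 4 * K) * ((p : ℝ) * (M / (n : ℝ) ^ 2)) := by ring
      _ ≤ 100 * (2 + 4 * K) * (M / (k * n)) :=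
          mul_le_mul_of_nonneg_left h5 (by positivity)
      _ = _ := by ring
  calc 2 * (2 * ((M * n + 4 * p + 1 : ℕ) : ℝ) + 1) ^ 2 *
        (25 * ((2 + 4 * K) * (((4 * p : ℕ) : ℝ) * (M / (n : ℝ) ^ 2)))) ^ 2
      ≤ 2 * ((2 * (M : ℝ) + 11) * n) ^ 2 * (100 * (2 + 4 * K) * M / (k * n)) ^ 2 := by
        refine mul_le_mul (mul_le_mul_of_nonneg_left
          (pow_le_pow_left₀ (by positivity) h3 2) zero_le_two)
          (pow_le_pow_left₀ (by positivity) h4 2) (by positivity) (by positivity)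
    _ = cA K M / (k : ℝ) ^ 2 := by
        unfold cA
        field_simp

end geom

end Vale.Agent.P159.T1.S.H934
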