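import Vale.Agent.P159.T1.S.H934.Loc2

/-!
Lower bound of the variance for a function at one scale: the theorem.
-/

open Filter Topology MeasureTheory

namespace Vale.Agent.P159.T1.S.H934

open Vale.Agent.P159 Vale.Agent.P159.T1.D Vale.Agent.P159.T1.D.H469

section

variable {M : ℕ} {δ : ℝ} {n p I : ℕ} {a : Z2} {U : Finset Z2} {φ : Z2 → ℝ} {b Y C : ℝ} {l : ℕ}

/-- the constant of the main part -/
noncomputable def cW (I M : ℕ) : ℝ := nsq I * nsq I * (9 * (M : ℝ) ^ 2)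

lemma cW_nonneg (I M : ℕ) : 0 ≤ cW I M :=
  mul_nonneg (mul_nonneg (nsq_nonneg I) (nsq_nonneg I)) (by positivity)

/-- the main part -/
lemma main_sum (hb : 0 ≤ b)
    (H : ∀ B : Bnd → ℝ, (∀ e, e ∉ bd U → B e = 0) →
      Vr b U B ≤ Y * ∑ e ∈ bd U, B e ^ 2 + C * osc l (bd U) B)
    (hφ : Reg M δ n a U φ) (hn : 1 ≤ n) (hp : 1 ≤ p) (hs : 4 * (p : ℝ) ≤ n)
    (hs' : 4 * (p : ℝ) ≤ δ * n) {β β' : ℝ} (h0 : 0 ≤ β) (h0' : 0 ≤ β')
    (hβ : ∀ u : Z2, (∀ f : Z2, u.1 ≤ f.1 → f.1 < u.1 + (4 * p : ℕ) → u.2 ≤ f.2 →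
      f.2 < u.2 + (4 * p : ℕ) → f ∈ U) → ∀ k : Fin 3,
      Df b Y C l U (bd U) (dr fun f => tf k (zz (4 * p) u f)) ≤ β ∧
      osc l (bd U) (dr fun f => tf k (zz (4 * p) u f)) ≤ β') :
    Df b Y C l U (bd U) (fun e => ∑ i ∈ act φ a p I, dr (mn φ (4 * p) (cor a p i)) e) ≤
      cW I M * β ∧
    osc l (bd U) (fun e => ∑ i ∈ act φ a p I, dr (mn φ (4 * p) (cor a p i)) e) ≤
      cW I M * β' := by
  have hpc : ∀ i ∈ act φ a p I, Df b Y C l U (bd U) (dr (mn φ (4 * p) (cor a p i))) ≤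
      9 * (M : ℝ) ^ 2 * β ∧
      osc l (bd U) (dr (mn φ (4 * p) (cor a p i))) ≤ 9 * (M : ℝ) ^ 2 * β' := by
    intro i hi
    refine main_bd hb H (by omega) (cf3_le hφ hn hs (cor a p i)) ?_ ?_
    · intro k e he
      exact dr_supp (fun f hf => act_bu hφ hp hs' hi fun h => hf (tf_zero h)) e he
    · refine hβ (cor a p i) fun f f1 f2 f3 f4 => ?_
      have g1 : ((cor a p i).1 : ℝ) ≤ f.1 := by exact_mod_cast f1
      have g2 : (f.1 : ℝ) < (cor a p i).1 + (4 * p : ℕ) := by exact_mod_cast f2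
      have g3 : ((cor a p i).2 : ℝ) ≤ f.2 := by exact_mod_cast f3
      have g4 : (f.2 : ℝ) < (cor a p i).2 + (4 * p : ℕ) := by exact_mod_cast f4
      push_cast at g2 g4
      exact act_room hφ hp hs' hi g1 g2.le g3 g4.le
  have hTc := act_card φ a p I
  have hn0 := nsq_nonneg I
  constructor
  · refine (Df_sum_le H hb (act φ a p I) fun i hi => mn_off hφ hp hs' hi).trans ?_
    have h1 := Finset.sum_le_card_nsmul (act φ a p I) _ _ fun i hi => (hpc i hi).1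
    rw [nsmul_eq_mul] at h1
    have hq : 0 ≤ 9 * (M : ℝ) ^ 2 * β := by positivity
    calc ((act φ a p I).card : ℝ) *
          ∑ i ∈ act φ a p I, Df b Y C l U (bd U) (dr (mn φ (4 * p) (cor a p i)))
        ≤ nsq I * (nsq I * (9 * (M : ℝ) ^ 2 * β)) := by
          refine mul_le_mul hTc (h1.trans (mul_le_mul_of_nonneg_right hTc hq)) ?_ hn0
          exact Finset.sum_nonneg fun i hi => Df_nonneg H (mn_off hφ hp hs' hi)
      _ = cW I M * β := by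
          unfold cW
          ring
  · refine (osc_sum_le l (bd U) (act φ a p I) _).trans ?_
    have h1 := Finset.sum_le_card_nsmul (act φ a p I) _ _ fun i hi => (hpc i hi).2
    rw [nsmul_eq_mul] at h1
    have hq : 0 ≤ 9 * (M : ℝ) ^ 2 * β' := by positivity
    calc ((act φ a p I).card : ℝ) *
          ∑ i ∈ act φ a p I, osc l (bd U) (dr (mn φ (4 * p) (cor a p i)))
        ≤ nsq I * (nsq I * (9 * (M : ℝ) ^ 2 * β')) := by
          refine mul_le_mul hTc (h1.trans (mul_le_mul_of_nonneg_right hTc hq)) ?_ hn0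
          exact Finset.sum_nonneg fun i hi => osc_nonneg _ _ _
      _ = cW I M * β' := by
          unfold cW
          ring

/-- combination -/
lemma comb (hb : 0 ≤ b) {Y0 ε1 : ℝ} (hY0 : 0 ≤ Y0) (hε1 : 0 ≤ ε1) (hε11 : ε1 ≤ 1) (hC : 0 ≤ C)
    (H : ∀ B : Bnd → ℝ, (∀ e, e ∉ bd U → B e = 0) →
      Vr b U B ≤ (Y0 + ε1) * ∑ e ∈ bd U, B e ^ 2 + C * osc l (bd U) B)
    {m r : Bnd → ℝ} (hd : ∀ e, dr φ e = m e + r e) (hm : ∀ e, e ∉ bd U → m e = 0)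
    (hr : ∀ e, e ∉ bd U → r e = 0) {x1 x2 x3 x4 : ℝ}
    (h1 : Df b (Y0 + ε1) C l U (bd U) m ≤ x1) (h2 : osc l (bd U) m ≤ x2)
    (h3 : osc l (bd U) (dr φ) ≤ x3) (h4 : ∑ e ∈ bd U, r e ^ 2 ≤ x4) :
    Y0 * ∑ e ∈ bd U, dr φ e ^ 2 - (2 * x1 + 2 * (Y0 + 1) * x4 + 4 * C * x3 + 4 * C * x2) ≤
      Vr b U (dr φ) := by
  have hdr : dr φ = fun e => m e + r e := funext hd
  have g1 := Df_add_le H hb hm hr
  rw [← hdr] at g1
  have g2 : Df b (Y0 + ε1) C l U (bd U) r ≤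
      (Y0 + ε1) * ∑ e ∈ bd U, r e ^ 2 + C * osc l (bd U) r := Df_le hb _
  have g3 : osc l (bd U) r ≤ 2 * x3 + 2 * x2 := by
    have e1 : r = dr φ - m := by
      funext e
      rw [Pi.sub_apply, hd e]
      ring
    rw [e1]
    refine (Vale.Agent.P159.T1.H934.osc_sub_le l (bd U) _ _).trans ?_
    linarith
  have g4 : (Y0 + ε1) * ∑ e ∈ bd U, r e ^ 2 ≤ (Y0 + 1) * x4 :=
    mul_le_mul (by linarith) h4 (Finset.sum_nonneg fun e _ => sq_nonneg _) (by linarith)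
  have g5 : C * osc l (bd U) r ≤ C * (2 * x3 + 2 * x2) := mul_le_mul_of_nonneg_left g3 hC
  rw [Df_eq] at g1
  unfold Nf at g1
  have g6 : 0 ≤ ε1 * ∑ e ∈ bd U, dr φ e ^ 2 :=
    mul_nonneg hε1 (Finset.sum_nonneg fun e _ => sq_nonneg _)
  have g7 : 0 ≤ C * osc l (bd U) (dr φ) := mul_nonneg hC (osc_nonneg _ _ _)
  linarith

end

/-- choice of the number of squares -/
lemma pick_k (δ ε Y A : ℝ) (hδ : 0 < δ) (hε : 0 < ε) (hY : 0 ≤ Y) (hA : 0 ≤ A) :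
    ∃ k : ℕ, 4 ≤ k ∧ 4 ≤ (k : ℝ) * δ ∧ 2 * (Y + 1) * (A / (k : ℝ) ^ 2) ≤ ε / 8 := by
  obtain ⟨k, hk⟩ := exists_nat_gt (max 4 (max (4 / δ) (A * (Y + 1) * 16 / ε)))
  have hk4 : (4 : ℝ) < k := (le_max_left _ _).trans_lt hk
  have hkδ : 4 / δ < k := ((le_max_left _ _).trans (le_max_right _ _)).trans_lt hk
  have hkA : A * (Y + 1) * 16 / ε < k := ((le_max_right _ _).trans (le_max_right _ _)).trans_lt hk
  have hk0 : (0 : ℝ) < k := by linarith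
  refine ⟨k, by exact_mod_cast hk4.le, ?_, ?_⟩
  · rw [div_lt_iff₀ hδ] at hkδ
    exact hkδ.le
  · rw [div_lt_iff₀ hε] at hkA
    have h1 : 2 * (Y + 1) * (A / (k : ℝ) ^ 2) = 2 * (Y + 1) * A / (k : ℝ) ^ 2 := by ring
    rw [h1, div_le_iff₀ (by positivity)]
    have h2 : (k : ℝ) * ε ≤ (k : ℝ) ^ 2 * ε := by
      have : (k : ℝ) ≤ (k : ℝ) ^ 2 := by nlinarith
      exact mul_le_mul_of_nonneg_right this hε.le
    linarith

/-- choice of the first small number -/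
lemma pick_e1 {ε W D : ℝ} (hε : 0 < ε) (hW : 0 ≤ W) (hD : 0 ≤ D) :
    ∃ ε1 : ℝ, 0 < ε1 ∧ ε1 ≤ 1 ∧ 2 * (W * (ε1 * D)) ≤ ε / 8 := by
  refine ⟨min 1 (ε / (16 * (W * D + 1))), lt_min one_pos (by positivity), min_le_left _ _, ?_⟩
  have h1 : min 1 (ε / (16 * (W * D + 1))) ≤ ε / (16 * (W * D + 1)) := min_le_right _ _
  set ε1 := min 1 (ε / (16 * (W * D + 1))) with hd
  have h2 : 0 ≤ ε1 := (lt_min one_pos (by positivity)).le
  rw [le_div_iff₀ (by positivity)] at h1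
  have h3 : 2 * (W * (ε1 * D)) * 8 ≤ ε1 * (16 * (W * D + 1)) := by
    have : 2 * (W * (ε1 * D)) * 8 = ε1 * (16 * (W * D)) := by ring
    rw [this]
    refine mul_le_mul_of_nonneg_left (by linarith) h2
  linarith

/-- choice of the second small number -/
lemma pick_e3 {ε W C : ℝ} (hε : 0 < ε) (hW : 0 ≤ W) (hC : 0 ≤ C) :
    ∃ ε3 : ℝ, 0 < ε3 ∧ 4 * C * (W * ε3) + 2 * (W * ε3) ≤ ε / 8 := by
  refine ⟨ε / (64 * ((W + 1) * (C + 1))), by positivity, ?_⟩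
  have h1 : ε / (64 * ((W + 1) * (C + 1))) * (64 * ((W + 1) * (C + 1))) = ε := by
    field_simp
  set ε3 := ε / (64 * ((W + 1) * (C + 1))) with hd
  have h0 : 0 < ε3 := by positivity
  have h2 : 0 ≤ ε3 * W := by positivity
  have h3 : 0 ≤ ε3 * C := by positivity
  have h4 : 0 ≤ ε3 * (W * C) := by positivity
  have h5 : ε3 * (64 * ((W + 1) * (C + 1))) =
      64 * (ε3 * (W * C)) + 64 * (ε3 * W) + 64 * (ε3 * C) + 64 * ε3 := by ring
  have h6 : 4 * C * (W * ε3) + 2 * (W * ε3) = 4 * (ε3 * (W * C)) + 2 * (ε3 * W) := by ring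
  rw [h6]
  linarith

/-- the theorem at one scale, natural constant -/
theorem loc_nat (hSQ : StmtSQ) (hLat : StmtLat) (hUV : StmtUV) {b : ℝ} (hb : bCrit ≤ b)
    (hb0 : 0 < b) (hY : 0 ≤ helicity b) (M : ℕ) (δ ε : ℝ) (hδ : 0 < δ) (hε : 0 < ε) :
    ∃ n1 : ℕ, ∀ n ≥ n1, ∀ (a : Z2) (U : Finset Z2) (φ : Z2 → ℝ), Reg M δ n a U φ →
      helicity b * ∑ e ∈ bd U, dr φ e ^ 2 - ε ≤ Vr b U (dr φ) := by
  obtain ⟨K, hK0, hK⟩ := bu_lip
  have hM0 : (0 : ℝ) ≤ M := Nat.cast_nonneg M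
  have hA0 : 0 ≤ cA K M := by
    unfold cA
    positivity
  obtain ⟨k, hk4, hkδ, hkA⟩ := pick_k δ ε (helicity b) (cA K M) hδ hε hY hA0
  have hkpos : 0 < k := by omega
  have hk0 : (0 : ℝ) < k := by exact_mod_cast hkpos
  set I : ℕ := 2 * k * M + 2 with hI
  have hW0 := cW_nonneg I M
  set D : ℝ := ∑ k : Fin 3, Dir (tf k) with hD
  have hDk : ∀ k : Fin 3, Dir (tf k) ≤ D := fun k =>
    Finset.single_le_sum (fun k _ => Dir_nonneg (tf k)) (Finset.mem_univ k)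
  have hD0 : 0 ≤ D := (Dir_nonneg _).trans (hDk 0)
  obtain ⟨ε1, hε10, hε11, hε12⟩ := pick_e1 hε hW0 hD0
  obtain ⟨l, C, hC, hUV1⟩ := hUV b ε1 hb0 hε10
  obtain ⟨ε3, hε30, hε31⟩ := pick_e3 hε hW0 hC.le
  obtain ⟨n0, hn0⟩ := Df_tf hSQ hLat hb hY hε10.le hC.le l hε30
  set E : ℝ := 8 * (2 * (M : ℝ) + 5) ^ 2 * (2 * (l : ℝ) + 1) ^ 2 * (l : ℝ) ^ 2 * (M : ℝ) ^ 2
    with hE
  have hE0 : 0 ≤ E := by positivity
  obtain ⟨n2, hn2⟩ := exists_nat_gt (64 * C * E / ε)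
  refine ⟨max (k * (n0 + 1)) (max (l + 1) (n2 + 1)), fun n hn a U φ hφ => ?_⟩
  have hnk : k * (n0 + 1) ≤ n := (le_max_left _ _).trans hn
  have hnl : l + 1 ≤ n := ((le_max_left _ _).trans (le_max_right _ _)).trans hn
  have hnn2 : n2 + 1 ≤ n := ((le_max_right _ _).trans (le_max_right _ _)).trans hn
  have hn1 : 1 ≤ n := by omega
  have hn0' : (0 : ℝ) < n := by exact_mod_cast hn1
  set p : ℕ := n / k with hp
  have hp0 : n0 + 1 ≤ p := by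
    rw [hp, Nat.le_div_iff_mul_le hkpos, mul_comm]
    exact hnk
  have hp1 : 1 ≤ p := by omega
  have hkp : k * p ≤ n := Nat.mul_div_le n k
  have hkp' : n ≤ 2 * k * p := by
    have h1 : n < k * (p + 1) := by
      rw [hp]
      exact Nat.lt_mul_div_succ n hkpos
    have h2 : k * 1 ≤ k * p := Nat.mul_le_mul_left k hp1
    have h3 : k * (p + 1) = k * p + k * 1 := by ring
    have h4 : 2 * k * p = k * p + k * p := by ring
    omega
  have hkpR : (k : ℝ) * p ≤ n := by exact_mod_cast hkp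
  have hkpR' : (n : ℝ) ≤ 2 * k * p := by exact_mod_cast hkp'
  have hp0R : (0 : ℝ) < p := by exact_mod_cast hp1
  have hs1 : 4 * (p : ℝ) ≤ n := by
    have h1 : (4 : ℝ) ≤ k := by exact_mod_cast hk4
    have h2 : 4 * (p : ℝ) ≤ k * p := mul_le_mul_of_nonneg_right h1 hp0R.le
    linarith
  have hs2 : 4 * (p : ℝ) ≤ δ * n := by
    have h1 : 4 * (p : ℝ) ≤ k * δ * p := mul_le_mul_of_nonneg_right hkδ hp0R.le
    have h2 : δ * (k * p) ≤ δ * n := mul_le_mul_of_nonneg_left hkpR hδ.le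
    linarith
  have hpn : (p : ℝ) ≤ n / k := by
    rw [le_div_iff₀ hk0]
    linarith
  have H : ∀ B : Bnd → ℝ, (∀ e, e ∉ bd U → B e = 0) →
      Vr b U B ≤ (helicity b + ε1) * ∑ e ∈ bd U, B e ^ 2 + C * osc l (bd U) B :=
    fun B hB => hUV1 U (bd U) B hB
  have hbox : ∀ f, φ f ≠ 0 → |(f.1 : ℝ) - a.1| ≤ p * ((I : ℝ) - 2) ∧
      |(f.2 : ℝ) - a.2| ≤ p * ((I : ℝ) - 2) := by
    intro f hf
    obtain ⟨h1, h2⟩ := hφ.supp f hf
    have h3 : (M : ℝ) * n ≤ p * ((I : ℝ) - 2) := by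
      have h4 : (M : ℝ) * n ≤ M * (2 * k * p) := mul_le_mul_of_nonneg_left hkpR' hM0
      rw [hI]
      push_cast
      linarith
    exact ⟨h1.trans h3, h2.trans h3⟩
  have h0 : 0 ≤ ε1 * D + ε3 := by positivity
  obtain ⟨b1, b2⟩ := main_sum (I := I) hb0.le H hφ hn1 hp1 hs1 hs2 h0 hε30.le
    (fun u hu k => by
      obtain ⟨h1, h2⟩ := hn0 (4 * p) (by omega) u U (bd U) hu k
      refine ⟨h1.trans ?_, h2⟩
      have := mul_le_mul_of_nonneg_left (hDk k) hε10.le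
      linarith)
  have b3 : osc l (bd U) (dr φ) ≤ E / (n : ℝ) ^ 2 := osc_phi hφ hnl (bd U)
  have b4 := rm_en (I := I) hK0.le hK hφ hn1 hp1 hkpos hs1 hpn (bd U)
  have b5 := comb hb0.le hY hε10.le hε11 hC.le H (dr_decomp hp1 hbox)
    (fun e he => Finset.sum_eq_zero fun i hi => mn_off hφ hp1 hs2 hi e he)
    (rm_off hφ hp1 hs2) b1 b2 b3 b4
  have b6 : 4 * C * (E / (n : ℝ) ^ 2) ≤ ε / 16 := by
    have h1 : (n2 : ℝ) + 1 ≤ n := by exact_mod_cast hnn2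
    have h2 : 64 * C * E / ε < n := by linarith
    rw [div_lt_iff₀ hε] at h2
    have h3 : (1 : ℝ) ≤ n := by linarith [Nat.cast_nonneg (α := ℝ) n2]
    rw [mul_div_assoc', div_le_iff₀ (by positivity)]
    have h4 : (n : ℝ) ≤ (n : ℝ) ^ 2 := by nlinarith
    have h5 : (n : ℝ) * ε ≤ (n : ℝ) ^ 2 * ε := mul_le_mul_of_nonneg_right h4 hε.le
    linarith
  have b7 : 2 * (cW I M * (ε1 * D + ε3)) = 2 * (cW I M * (ε1 * D)) + 2 * (cW I M * ε3) := by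
    ring
  linarith

lemma Reg.mono {M M' δ : ℝ} {n : ℕ} {a : Z2} {U : Finset Z2} {φ : Z2 → ℝ}
    (h : Reg M δ n a U φ) (hM : M ≤ M') : Reg M' δ n a U φ := by
  have hn : (0 : ℝ) ≤ n := Nat.cast_nonneg n
  refine ⟨fun f hf => ?_, h.room, fun f => (h.bd0 f).trans hM, fun f => ?_, fun f => ?_⟩
  · have h1 := mul_le_mul_of_nonneg_right hM hn
    exact ⟨(h.supp f hf).1.trans h1, (h.supp f hf).2.trans h1⟩
  · have h1 := div_le_div_of_nonneg_right hM hn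
    exact ⟨(h.bd1 f).1.trans h1, (h.bd1 f).2.trans h1⟩
  · have h1 : M / (n : ℝ) ^ 2 ≤ M' / (n : ℝ) ^ 2 :=
      div_le_div_of_nonneg_right hM (by positivity)
    exact ⟨(h.bd2 f).1.trans h1, (h.bd2 f).2.1.trans h1, (h.bd2 f).2.2.trans h1⟩

/-- **Lower bound of the variance at one scale.** -/
theorem loc (hSQ : StmtSQ) (hLat : StmtLat) (hUV : StmtUV) {b : ℝ} (hb : bCrit ≤ b)
    (hb0 : 0 < b) (hY : 0 ≤ helicity b) (M δ ε : ℝ) (hδ : 0 < δ) (hε : 0 < ε) :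
    ∃ n1 : ℕ, ∀ n ≥ n1, ∀ (a : Z2) (U : Finset Z2) (φ : Z2 → ℝ), Reg M δ n a U φ →
      helicity b * ∑ e ∈ bd U, dr φ e ^ 2 - ε ≤ Vr b U (dr φ) := by
  obtain ⟨n1, h1⟩ := loc_nat hSQ hLat hUV hb hb0 hY ⌈M⌉₊ δ ε hδ hε
  exact ⟨n1, fun n hn a U φ h => h1 n hn a U φ (h.mono (Nat.le_ceil M))⟩

end Vale.Agent.P159.T1.S.H934
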