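import Vale.Agent.P159.T1.S.H934.Scal

/-!
The dyadic pieces of a function with scale invariant bounds.
-/

open Filter Topology MeasureTheory

namespace Vale.Agent.P159.T1.S.H934

open Vale.Agent.P159 Vale.Agent.P159.T1.D
open Vale.Agent.P159.T1.H775 (stp)

/-- scale invariant bounds -/
structure SI (M δ : ℝ) (U : Finset Z2) (φ : Z2 → ℝ) : Prop where
  room : ∀ f, φ f ≠ 0 → ∀ g : Z2, |((g.1 - f.1 : ℤ) : ℝ)| ≤ δ * nm f →
    |((g.2 - f.2 : ℤ) : ℝ)| ≤ δ * nm f → g ∈ U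
  bd0 : ∀ f, |φ f| ≤ M
  bd1 : ∀ f d, (1 + nm f : ℝ) * |φ (stp d f) - φ f| ≤ M
  bd2 : ∀ f d d', (1 + nm f : ℝ) ^ 2 *
    |φ (stp d (stp d' f)) - φ (stp d' f) - (φ (stp d f) - φ f)| ≤ M

lemma nm_real (f : Z2) : (nm f : ℝ) = max |(f.1 : ℝ)| |(f.2 : ℝ)| := by
  unfold nm
  rw [Nat.cast_max, Nat.cast_natAbs, Nat.cast_natAbs]
  push_cast
  rfl

lemma nm_sq_le (f : Z2) : (nm f : ℝ) ^ 2 ≤ qf f := by
  rw [nm_real]
  unfold qf
  rcases le_total |(f.1 : ℝ)| |(f.2 : ℝ)| with h | h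
  · rw [max_eq_right h, sq_abs]
    nlinarith [sq_nonneg (f.1 : ℝ)]
  · rw [max_eq_left h, sq_abs]
    nlinarith [sq_nonneg (f.2 : ℝ)]

lemma qf_le (f : Z2) : qf f ≤ 2 * (nm f : ℝ) ^ 2 := by
  rw [nm_real]
  unfold qf
  have h1 : (f.1 : ℝ) ^ 2 ≤ max |(f.1 : ℝ)| |(f.2 : ℝ)| ^ 2 := by
    rw [← sq_abs (f.1 : ℝ)]
    exact pow_le_pow_left₀ (abs_nonneg _) (le_max_left _ _) 2
  have h2 : (f.2 : ℝ) ^ 2 ≤ max |(f.1 : ℝ)| |(f.2 : ℝ)| ^ 2 := by
    rw [← sq_abs (f.2 : ℝ)]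
    exact pow_le_pow_left₀ (abs_nonneg _) (le_max_right _ _) 2
  linarith

lemma nm_stp (d : Bool) (f : Z2) : nm (stp d f) ≤ nm f + 1 := by
  unfold nm stp
  cases d
  · simp only [Bool.false_eq_true, if_false]
    omega
  · simp only [if_true]
    omega

/-- a face where the cut-off does not vanish is far from the tip -/
lemma nm_th {j : ℕ} {f : Z2} (h : th j f ≠ 0) : (7 / 10 : ℝ) * 2 ^ j ≤ nm f := by
  have h1 := (th_mem h).1
  have h2 := qf_le f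
  have h4 : (4 : ℝ) ^ j = 2 ^ j * 2 ^ j := by
    rw [← mul_pow]
    norm_num
  have h3 : (0 : ℝ) ≤ 2 ^ j := by positivity
  have h5 : (0 : ℝ) ≤ nm f := Nat.cast_nonneg _
  by_contra h6
  rw [not_le] at h6
  nlinarith

section reg

variable {M δ K : ℝ} {U : Finset Z2} {φ : Z2 → ℝ} {j : ℕ}

/-- the part of the domain at scale `2 ^ j` -/
noncomputable def Uj (U : Finset Z2) (j : ℕ) : Finset Z2 := by
  classical
  exact U.filter fun f => 3 / 4 * (4 : ℝ) ^ j ≤ qf f ∧ qf f ≤ 10 * 4 ^ j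

lemma mem_Uj {f : Z2} : f ∈ Uj U j ↔ f ∈ U ∧ 3 / 4 * (4 : ℝ) ^ j ≤ qf f ∧ qf f ≤ 10 * 4 ^ j := by
  unfold Uj
  rw [Finset.mem_filter]

lemma Uj_sub (U : Finset Z2) (j : ℕ) : Uj U j ⊆ U := fun _ hf => (mem_Uj.1 hf).1

/-- the pieces -/
noncomputable def pc (φ : Z2 → ℝ) (j : ℕ) (f : Z2) : ℝ := th j f * φ f

lemma pc_room (hM : SI M δ U φ) (hδ : 0 ≤ δ) {f : Z2} (hf : pc φ j f ≠ 0) {g : Z2}
    (h1 : |(g.1 : ℝ) - f.1| ≤ min (δ / 2) (1 / 48) * 2 ^ j)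
    (h2 : |(g.2 : ℝ) - f.2| ≤ min (δ / 2) (1 / 48) * 2 ^ j) : g ∈ Uj U j := by
  have h3 : (0 : ℝ) < 2 ^ j := by positivity
  have ht : th j f ≠ 0 := left_ne_zero_of_mul hf
  have hφ : φ f ≠ 0 := right_ne_zero_of_mul hf
  have h4 : (4 : ℝ) ^ j = 2 ^ j * 2 ^ j := by
    rw [← mul_pow]
    norm_num
  obtain ⟨q1, q2⟩ := th_mem ht
  have hn := nm_th ht
  have a1 : min (δ / 2) (1 / 48) * (2 : ℝ) ^ j ≤ δ / 2 * 2 ^ j :=
    mul_le_mul_of_nonneg_right (min_le_left _ _) h3.le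
  have a2 : min (δ / 2) (1 / 48) * (2 : ℝ) ^ j ≤ 1 / 48 * 2 ^ j :=
    mul_le_mul_of_nonneg_right (min_le_right _ _) h3.le
  have a3 : δ / 2 * (2 : ℝ) ^ j ≤ δ * nm f := by
    have : δ * ((7 / 10 : ℝ) * 2 ^ j) ≤ δ * nm f := mul_le_mul_of_nonneg_left hn hδ
    nlinarith
  rw [mem_Uj]
  refine ⟨hM.room f hφ g ?_ ?_, ?_⟩
  · push_cast
    linarith
  · push_cast
    linarith
  · have b1 : |(g.1 : ℝ) - f.1| ≤ 1 / 48 * 2 ^ j := h1.trans a2
    have b2 : |(g.2 : ℝ) - f.2| ≤ 1 / 48 * 2 ^ j := h2.trans a2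
    set t : ℝ := 2 ^ j with hT
    have c1 : |(f.1 : ℝ)| ≤ 3 * t := by
      refine abs_le_of_sq_le_sq ?_ (by positivity)
      unfold qf at q2
      nlinarith [sq_nonneg (f.2 : ℝ)]
    have c2 : |(f.2 : ℝ)| ≤ 3 * t := by
      refine abs_le_of_sq_le_sq ?_ (by positivity)
      unfold qf at q2
      nlinarith [sq_nonneg (f.1 : ℝ)]
    have key : ∀ x y : ℝ, |y - x| ≤ 1 / 48 * t → |x| ≤ 3 * t →
        x ^ 2 - 1 / 8 * (t * t) ≤ y ^ 2 ∧ y ^ 2 ≤ x ^ 2 + 1 / 4 * (t * t) := by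
      intro x y hy hx
      have e1 : y ^ 2 = x ^ 2 + 2 * (x * (y - x)) + (y - x) ^ 2 := by ring
      have e2 : |x * (y - x)| ≤ 3 * t * (1 / 48 * t) := by
        rw [abs_mul]
        exact mul_le_mul hx hy (abs_nonneg _) (by positivity)
      have e3 : (y - x) ^ 2 ≤ (1 / 48 * t) ^ 2 := by
        rw [← sq_abs]
        exact pow_le_pow_left₀ (abs_nonneg _) hy 2
      have e4 := sq_nonneg (y - x)
      have e5 : 0 ≤ t * t := by positivity
      rw [abs_le] at e2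
      rw [e1]
      constructor <;> nlinarith
    obtain ⟨k1, k2⟩ := key _ _ b1 c1
    obtain ⟨k3, k4⟩ := key _ _ b2 c2
    unfold qf at q1 q2 ⊢
    rw [h4] at q1 q2 ⊢
    constructor <;> linarith

lemma pc_box {f : Z2} (hf : pc φ j f ≠ 0) : |(f.1 : ℝ)| ≤ 3 * 2 ^ j ∧ |(f.2 : ℝ)| ≤ 3 * 2 ^ j := by
  have ht : th j f ≠ 0 := left_ne_zero_of_mul hf
  have h4 : (4 : ℝ) ^ j = 2 ^ j * 2 ^ j := by
    rw [← mul_pow]
    norm_num
  have q2 := (th_mem ht).2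
  unfold qf at q2
  rw [h4] at q2
  constructor
  · refine abs_le_of_sq_le_sq ?_ (by positivity)
    nlinarith [sq_nonneg (f.2 : ℝ), sq_nonneg ((2 : ℝ) ^ j)]
  · refine abs_le_of_sq_le_sq ?_ (by positivity)
    nlinarith [sq_nonneg (f.1 : ℝ), sq_nonneg ((2 : ℝ) ^ j)]

/-- gradient of `φ` near the support of the cut-off -/
lemma near1 (hM : SI M δ U φ) (h5 : 3 ≤ j) {f g : Z2} (hg : th j g ≠ 0)
    (hfg : nm g ≤ nm f + 2) (d : Bool) : |φ (stp d f) - φ f| ≤ 2 * M / 2 ^ j := by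
  have h3 : (8 : ℝ) ≤ 2 ^ j := by
    calc (8 : ℝ) = 2 ^ 3 := by norm_num
      _ ≤ 2 ^ j := pow_le_pow_right₀ (by norm_num) h5
  have h1 := nm_th hg
  have h2 : (nm g : ℝ) ≤ nm f + 2 := by exact_mod_cast hfg
  have h4 : (2 : ℝ) ^ j / 2 ≤ 1 + nm f := by linarith
  have h6 := hM.bd1 f d
  have h7 : (2 : ℝ) ^ j / 2 * |φ (stp d f) - φ f| ≤ M :=
    (mul_le_mul_of_nonneg_right h4 (abs_nonneg _)).trans h6
  rw [le_div_iff₀ (by positivity)]
  linarith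

lemma near2 (hM : SI M δ U φ) (h5 : 3 ≤ j) {f g : Z2} (hg : th j g ≠ 0)
    (hfg : nm g ≤ nm f + 2) (d d' : Bool) :
    |φ (stp d (stp d' f)) - φ (stp d' f) - (φ (stp d f) - φ f)| ≤ 4 * M / 4 ^ j := by
  have h3 : (8 : ℝ) ≤ 2 ^ j := by
    calc (8 : ℝ) = 2 ^ 3 := by norm_num
      _ ≤ 2 ^ j := pow_le_pow_right₀ (by norm_num) h5
  have h0 : (4 : ℝ) ^ j = 2 ^ j * 2 ^ j := by
    rw [← mul_pow]
    norm_num
  have h1 := nm_th hg
  have h2 : (nm g : ℝ) ≤ nm f + 2 := by exact_mod_cast hfg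
  have h4 : (2 : ℝ) ^ j / 2 ≤ 1 + nm f := by linarith
  have h4' : ((2 : ℝ) ^ j / 2) ^ 2 ≤ (1 + nm f : ℝ) ^ 2 := pow_le_pow_left₀ (by positivity) h4 2
  have h6 := hM.bd2 f d d'
  have h7 : ((2 : ℝ) ^ j / 2) ^ 2 *
      |φ (stp d (stp d' f)) - φ (stp d' f) - (φ (stp d f) - φ f)| ≤ M :=
    (mul_le_mul_of_nonneg_right h4' (abs_nonneg _)).trans h6
  rw [le_div_iff₀ (by positivity), h0]
  linarith

lemma SI.nonneg (hM : SI M δ U φ) : 0 ≤ M := (abs_nonneg _).trans (hM.bd0 (0, 0))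

/-- first differences of a piece -/
lemma pc_d1 (hM : SI M δ U φ) (h5 : 3 ≤ j) (hK0 : 0 ≤ K)
    (hK : ∀ f, (∀ d, |th j (stp d f) - th j f| ≤ K / 2 ^ j)) (f : Z2) (d : Bool) :
    |pc φ j (stp d f) - pc φ j f| ≤ (2 + K) * M / 2 ^ j := by
  have hM0 := hM.nonneg
  have e1 : pc φ j (stp d f) - pc φ j f = th j (stp d f) * (φ (stp d f) - φ f) +
      (th j (stp d f) - th j f) * φ f := by
    unfold pc
    ring
  have e2 : |th j (stp d f) * (φ (stp d f) - φ f)| ≤ 2 * M / 2 ^ j := by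
    by_cases h : th j (stp d f) = 0
    · rw [h, zero_mul, abs_zero]
      positivity
    · rw [abs_mul]
      have h1 := near1 hM h5 h (f := f) ((nm_stp d f).trans (by omega)) d
      have h2 : |th j (stp d f)| ≤ 1 := by
        rw [abs_of_nonneg (th_nonneg _ _)]
        exact th_le_one _ _
      calc |th j (stp d f)| * |φ (stp d f) - φ f| ≤ 1 * (2 * M / 2 ^ j) :=
            mul_le_mul h2 h1 (abs_nonneg _) zero_le_one
        _ = _ := one_mul _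
  have e3 : |(th j (stp d f) - th j f) * φ f| ≤ K / 2 ^ j * M := by
    rw [abs_mul]
    exact mul_le_mul (hK f d) (hM.bd0 f) (abs_nonneg _) (by positivity)
  rw [e1]
  refine (abs_add_le _ _).trans ((add_le_add e2 e3).trans (le_of_eq ?_))
  ring

/-- second differences of a piece -/
lemma pc_d2 (hM : SI M δ U φ) (h5 : 3 ≤ j) (hK0 : 0 ≤ K)
    (hK : ∀ f, (∀ d, |th j (stp d f) - th j f| ≤ K / 2 ^ j))
    (hK2 : ∀ f, ∀ d d', |th j (stp d (stp d' f)) - th j (stp d' f) -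
      (th j (stp d f) - th j f)| ≤ K / 4 ^ j) (f : Z2) (d d' : Bool) :
    |pc φ j (stp d (stp d' f)) - pc φ j (stp d' f) - (pc φ j (stp d f) - pc φ j f)| ≤
      (4 + 5 * K) * M / 4 ^ j := by
  have hM0 := hM.nonneg
  have h0 : (4 : ℝ) ^ j = 2 ^ j * 2 ^ j := by
    rw [← mul_pow]
    norm_num
  have hcomm : stp d' (stp d f) = stp d (stp d' f) := by
    unfold stp
    cases d <;> cases d' <;> simp
  set g := stp d (stp d' f) with hg
  have ng : nm g ≤ nm f + 2 := by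
    have n1 := nm_stp d (stp d' f)
    rw [← hg] at n1
    have n2 := nm_stp d' f
    omega
  have ng1 : nm (stp d f) ≤ nm f + 2 := (nm_stp d f).trans (by omega)
  have ng2 : nm (stp d' f) ≤ nm f + 2 := (nm_stp d' f).trans (by omega)
  have one : ∀ x, |th j x| ≤ 1 := fun x => by
    rw [abs_of_nonneg (th_nonneg _ _)]
    exact th_le_one _ _
  have e1 : pc φ j g - pc φ j (stp d' f) - (pc φ j (stp d f) - pc φ j f) =
      th j g * (φ g - φ (stp d' f) - (φ (stp d f) - φ f)) +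
      (th j g - th j (stp d f)) * (φ (stp d f) - φ f) +
      (th j g - th j (stp d' f)) * (φ (stp d' f) - φ f) +
      (th j g - th j (stp d' f) - (th j (stp d f) - th j f)) * φ f := by
    unfold pc
    ring
  have t1 : |th j g * (φ g - φ (stp d' f) - (φ (stp d f) - φ f))| ≤ 4 * M / 4 ^ j := by
    by_cases h : th j g = 0
    · rw [h, zero_mul, abs_zero]
      positivity
    · rw [abs_mul]
      have h1 := near2 hM h5 h ng d d'
      calc |th j g| * |φ g - φ (stp d' f) - (φ (stp d f) - φ f)| ≤ 1 * (4 * M / 4 ^ j) :=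
            mul_le_mul (one g) h1 (abs_nonneg _) zero_le_one
        _ = _ := one_mul _
  have tt : ∀ (x : Z2) (d1 : Bool), nm x ≤ nm f + 2 → |th j g - th j x| ≤ K / 2 ^ j →
      |(th j g - th j x) * (φ (stp d1 f) - φ f)| ≤ 2 * K * M / 4 ^ j := by
    intro x d1 hx hd
    have hr : K / 2 ^ j * (2 * M / 2 ^ j) = 2 * K * M / 4 ^ j := by
      rw [h0]
      field_simp
    by_cases h : th j g = 0
    · by_cases h' : th j x = 0
      · rw [h, h', sub_zero, zero_mul, abs_zero]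
        positivity
      · rw [abs_mul, ← hr]
        exact mul_le_mul hd (near1 hM h5 h' hx d1) (abs_nonneg _) (by positivity)
    · rw [abs_mul, ← hr]
      exact mul_le_mul hd (near1 hM h5 h ng d1) (abs_nonneg _) (by positivity)
  have t2 : |(th j g - th j (stp d f)) * (φ (stp d f) - φ f)| ≤ 2 * K * M / 4 ^ j := by
    refine tt _ d ng1 ?_
    have := hK (stp d f) d'
    rwa [hcomm] at this
  have t3 : |(th j g - th j (stp d' f)) * (φ (stp d' f) - φ f)| ≤ 2 * K * M / 4 ^ j :=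
    tt _ d' ng2 (hK (stp d' f) d)
  have t4 : |(th j g - th j (stp d' f) - (th j (stp d f) - th j f)) * φ f| ≤ K / 4 ^ j * M := by
    rw [abs_mul]
    exact mul_le_mul (hK2 f d d') (hM.bd0 f) (abs_nonneg _) (by positivity)
  rw [e1]
  refine (abs_add_le _ _).trans ?_
  have s1 := abs_add_le (th j g * (φ g - φ (stp d' f) - (φ (stp d f) - φ f)) +
      (th j g - th j (stp d f)) * (φ (stp d f) - φ f))
      ((th j g - th j (stp d' f)) * (φ (stp d' f) - φ f))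
  have s2 := abs_add_le (th j g * (φ g - φ (stp d' f) - (φ (stp d f) - φ f)))
      ((th j g - th j (stp d f)) * (φ (stp d f) - φ f))
  have hr : 4 * M / (4 : ℝ) ^ j + 2 * K * M / 4 ^ j + 2 * K * M / 4 ^ j + K / 4 ^ j * M =
      (4 + 5 * K) * M / 4 ^ j := by ring
  rw [← hr]
  linarith

/-- the pieces are regular at their scale -/
lemma pc_reg (hM : SI M δ U φ) (hδ : 0 < δ) (h5 : 3 ≤ j) (hK0 : 0 ≤ K)
    (hK : ∀ f, (∀ d, |th j (stp d f) - th j f| ≤ K / 2 ^ j) ∧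
      ∀ d d', |th j (stp d (stp d' f)) - th j (stp d' f) - (th j (stp d f) - th j f)| ≤
        K / 4 ^ j) :
    Reg ((4 + 5 * K) * M + 3) (min (δ / 2) (1 / 48)) (2 ^ j) (0, 0) (Uj U j) (pc φ j) := by
  have hM0 := hM.nonneg
  have hKM : 0 ≤ K * M := mul_nonneg hK0 hM0
  have hp2 : (0 : ℝ) < 2 ^ j := by positivity
  have h0 : ((2 ^ j : ℕ) : ℝ) = 2 ^ j := by push_cast; rfl
  have h0' : (((2 ^ j : ℕ) : ℝ)) ^ 2 = 4 ^ j := by
    rw [h0, ← pow_mul, mul_comm, pow_mul]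
    norm_num
  refine ⟨fun f hf => ?_, fun f hf g h1 h2 => ?_, fun f => ?_, fun f => ?_, fun f => ?_⟩
  · obtain ⟨h1, h2⟩ := pc_box hf
    have h3 : 3 * (2 : ℝ) ^ j ≤ ((4 + 5 * K) * M + 3) * 2 ^ j :=
      mul_le_mul_of_nonneg_right (by nlinarith) hp2.le
    rw [h0]
    simp only [Int.cast_zero, sub_zero]
    exact ⟨h1.trans h3, h2.trans h3⟩
  · rw [h0] at h1 h2
    exact pc_room hM hδ.le hf h1 h2
  · unfold pc
    rw [abs_mul, abs_of_nonneg (th_nonneg _ _)]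
    have h1 : th j f * |φ f| ≤ 1 * M :=
      mul_le_mul (th_le_one _ _) (hM.bd0 f) (abs_nonneg _) zero_le_one
    nlinarith
  · rw [h0]
    have h1 : ∀ d, |pc φ j (stp d f) - pc φ j f| ≤ ((4 + 5 * K) * M + 3) / 2 ^ j := fun d =>
      (pc_d1 hM h5 hK0 (fun f => (hK f).1) f d).trans
        (div_le_div_of_nonneg_right (by nlinarith) hp2.le)
    exact ⟨h1 false, h1 true⟩
  · rw [h0']
    have h1 : ∀ d d', |pc φ j (stp d (stp d' f)) - pc φ j (stp d' f) -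
        (pc φ j (stp d f) - pc φ j f)| ≤ ((4 + 5 * K) * M + 3) / 4 ^ j := fun d d' =>
      (pc_d2 hM h5 hK0 (fun f => (hK f).1) (fun f => (hK f).2) f d d').trans
        (div_le_div_of_nonneg_right (by nlinarith) (by positivity))
    exact ⟨h1 false false, h1 true false, h1 true true⟩

end reg

end Vale.Agent.P159.T1.S.H934
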