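import Vale.Agent.P159.T1.S.H934.Cut
import Vale.Agent.P159.T1.S.H934.Disc

/-!
A function with small second differences is a sum of localized affine functions, up to a small
gradient.
-/

open Filter Topology MeasureTheory

namespace Vale.Agent.P159.T1.S.H934

open Vale.Agent.P159.T1.D

/-- coordinates in the square with corner `u` and side `s` -/
noncomputable def zz (s : ℕ) (u f : Z2) : ℝ × ℝ := (((f.1 : ℝ) - u.1) / s, ((f.2 : ℝ) - u.2) / s)

lemma bu_zz_mem {s : ℕ} (hs : 4 ≤ s) {u f : Z2} (h : bu (zz s u f) ≠ 0) :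
    ((u.1 : ℝ) + 1 < f.1 ∧ (f.1 : ℝ) + 1 < u.1 + s) ∧
      ((u.2 : ℝ) + 1 < f.2 ∧ (f.2 : ℝ) + 1 < u.2 + s) := by
  have hs' : (4 : ℝ) ≤ s := by exact_mod_cast hs
  have hs0 : (0 : ℝ) < s := by linarith
  obtain ⟨⟨h1, h2⟩, h3, h4⟩ := bu_mem h
  simp only [zz] at h1 h2 h3 h4
  rw [lt_div_iff₀ hs0] at h1 h3
  rw [div_lt_iff₀ hs0] at h2 h4
  refine ⟨⟨by linarith, by linarith⟩, by linarith, by linarith⟩

lemma zz_near (s : ℕ) (hs : 0 < s) (u f g : Z2) (h1 : |(f.1 : ℝ) - g.1| ≤ 1)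
    (h2 : |(f.2 : ℝ) - g.2| ≤ 1) : ‖zz s u f - zz s u g‖ ≤ 1 / s := by
  have hs0 : (0 : ℝ) < s := by exact_mod_cast hs
  rw [Prod.norm_def]
  simp only [zz, Prod.fst_sub, Prod.snd_sub, Real.norm_eq_abs]
  have e1 : ((f.1 : ℝ) - u.1) / s - ((g.1 : ℝ) - u.1) / s = ((f.1 : ℝ) - g.1) / s := by ring
  have e2 : ((f.2 : ℝ) - u.2) / s - ((g.2 : ℝ) - u.2) / s = ((f.2 : ℝ) - g.2) / s := by ring
  rw [e1, e2, abs_div, abs_div, abs_of_pos hs0]
  exact max_le (div_le_div_of_nonneg_right h1 hs0.le) (div_le_div_of_nonneg_right h2 hs0.le)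

lemma lf_rt (e : Bnd) : |((lf e).1 : ℝ) - (rt e).1| ≤ 1 ∧ |((lf e).2 : ℝ) - (rt e).2| ≤ 1 := by
  obtain ⟨⟨i, j⟩, d⟩ := e
  cases d <;> simp [lf, rt]

/-- the ends of a bond -/
lemma lf_cases (e : Bnd) : (e.1.1 - 1 ≤ (lf e).1 ∧ (lf e).1 ≤ e.1.1) ∧
    (e.1.2 - 1 ≤ (lf e).2 ∧ (lf e).2 ≤ e.1.2) := by
  obtain ⟨⟨i, j⟩, d⟩ := e
  cases d <;> simp [lf]

lemma rt_cases (e : Bnd) : (e.1.1 - 1 ≤ (rt e).1 ∧ (rt e).1 ≤ e.1.1) ∧
    (e.1.2 - 1 ≤ (rt e).2 ∧ (rt e).2 ≤ e.1.2) := by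
  obtain ⟨⟨i, j⟩, d⟩ := e
  cases d <;> simp [rt]

/-- one piece -/
lemma rem_one {γ K : ℝ} {φ : Z2 → ℝ} (h : Sm γ φ) (hγ : 0 ≤ γ) {s : ℕ} (hs : 4 ≤ s)
    (hK : ∀ z w : ℝ × ℝ, |bu z - bu w| ≤ K * ‖z - w‖) (hK0 : 0 ≤ K) (u : Z2) (e : Bnd) :
    |dr (fun f => bu (zz s u f) * (φ f - aff φ u f)) e| ≤ (2 + 4 * K) * (s * γ) := by
  have hs' : (4 : ℝ) ≤ s := by exact_mod_cast hs
  have hs0 : (0 : ℝ) < s := by linarith
  by_cases h0 : bu (zz s u (lf e)) = 0 ∧ bu (zz s u (rt e)) = 0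
  · have : dr (fun f => bu (zz s u f) * (φ f - aff φ u f)) e = 0 := by
      simp only [dr, h0.1, h0.2]
      ring
    rw [this, abs_zero]
    positivity
  · -- both faces are in the square
    have hn := lf_rt e
    have hin : ∀ f, (f = lf e ∨ f = rt e) → (|(f.1 : ℝ) - u.1| ≤ s ∧ |(f.2 : ℝ) - u.2| ≤ s) := by
      have h1 : ∃ g, (g = lf e ∨ g = rt e) ∧ bu (zz s u g) ≠ 0 := by
        by_contra h2
        push Not at h2
        exact h0 ⟨h2 _ (Or.inl rfl), h2 _ (Or.inr rfl)⟩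
      obtain ⟨g, hg, hg0⟩ := h1
      obtain ⟨⟨h3, h4⟩, h5, h6⟩ := bu_zz_mem hs hg0
      intro f hf
      have h7 : |(f.1 : ℝ) - g.1| ≤ 1 ∧ |(f.2 : ℝ) - g.2| ≤ 1 := by
        rcases hf with rfl | rfl <;> rcases hg with rfl | rfl
        · simp
        · exact hn
        · rw [abs_sub_comm, abs_sub_comm ((rt e).2 : ℝ)]
          exact hn
        · simp
      obtain ⟨h8, h9⟩ := h7
      rw [abs_le] at h8 h9
      exact ⟨abs_le.2 ⟨by linarith, by linarith⟩, abs_le.2 ⟨by linarith, by linarith⟩⟩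
    have hL := hin _ (Or.inl rfl)
    have hR := hin _ (Or.inr rfl)
    set g : Z2 → ℝ := fun f => φ f - aff φ u f with hg
    have t1 : |dr g e| ≤ 2 * s * γ := by
      obtain ⟨p, d⟩ := e
      cases d
      · rw [dr_false, hg, d2_aff]
        refine (h.dd2 _ _).trans (mul_le_mul_of_nonneg_right ?_ hγ)
        have := hR
        simp only [rt, Bool.false_eq_true, if_false] at this
        linarith [this.1, this.2]
      · rw [dr_true, hg, d1_aff, abs_neg]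
        refine (h.dd1 _ _).trans (mul_le_mul_of_nonneg_right ?_ hγ)
        have := hL
        simp only [lf, if_true] at this
        linarith [this.1, this.2]
    have t2 : |bu (zz s u (lf e)) - bu (zz s u (rt e))| ≤ K / s := by
      refine (hK _ _).trans ?_
      calc K * ‖zz s u (lf e) - zz s u (rt e)‖ ≤ K * (1 / s) :=
            mul_le_mul_of_nonneg_left (zz_near s (by omega) u _ _ hn.1 hn.2) hK0
        _ = K / s := by ring
    have t3 : |g (rt e)| ≤ 4 * (s : ℝ) ^ 2 * γ := taylor h hγ hR.1 hR.2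
    have t4 : |bu (zz s u (lf e))| ≤ 1 := by
      rw [abs_of_nonneg (bu_nonneg _)]
      exact bu_le_one _
    have t5 : dr (fun f => bu (zz s u f) * (φ f - aff φ u f)) e =
        bu (zz s u (lf e)) * dr g e + (bu (zz s u (lf e)) - bu (zz s u (rt e))) * g (rt e) := by
      unfold dr
      simp only [hg]
      ring
    rw [t5]
    refine (abs_add_le _ _).trans ?_
    rw [abs_mul, abs_mul]
    calc |bu (zz s u (lf e))| * |dr g e| +
          |bu (zz s u (lf e)) - bu (zz s u (rt e))| * |g (rt e)|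
        ≤ 1 * (2 * s * γ) + K / s * (4 * (s : ℝ) ^ 2 * γ) := by
          refine add_le_add (mul_le_mul t4 t1 (abs_nonneg _) zero_le_one)
            (mul_le_mul t2 t3 (abs_nonneg _) (by positivity))
      _ = (2 + 4 * K) * (s * γ) := by
          field_simp

/-- the corners of the squares -/
def cor (a : Z2) (p : ℕ) (i : Z2) : Z2 := (a.1 + p * i.1, a.2 + p * i.2)

/-- the squares which meet a given bond -/
lemma near_card {a : Z2} {p : ℕ} (hp : 1 ≤ p) (e : Bnd) {i : Z2}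
    (h : bu (zz (4 * p) (cor a p i) (lf e)) ≠ 0 ∨ bu (zz (4 * p) (cor a p i) (rt e)) ≠ 0) :
    i ∈ Finset.Icc ((e.1.1 - a.1) / (p : ℤ) - 4) ((e.1.1 - a.1) / (p : ℤ)) ×ˢ
      Finset.Icc ((e.1.2 - a.2) / (p : ℤ) - 4) ((e.1.2 - a.2) / (p : ℤ)) := by
  have hs : 4 ≤ 4 * p := by omega
  have key : ∃ f : Z2, ((e.1.1 - 1 ≤ f.1 ∧ f.1 ≤ e.1.1) ∧ (e.1.2 - 1 ≤ f.2 ∧ f.2 ≤ e.1.2)) ∧
      bu (zz (4 * p) (cor a p i) f) ≠ 0 := by
    rcases h with h | h
    · exact ⟨_, lf_cases e, h⟩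
    · exact ⟨_, rt_cases e, h⟩
  obtain ⟨f, ⟨⟨f1, f2⟩, f3, f4⟩, hf⟩ := key
  obtain ⟨⟨h1, h2⟩, h3, h4⟩ := bu_zz_mem hs hf
  simp only [cor] at h1 h2 h3 h4
  have h1' : a.1 + (p : ℤ) * i.1 + 1 < f.1 := by exact_mod_cast h1
  have h2' : f.1 + 1 < a.1 + (p : ℤ) * i.1 + 4 * p := by exact_mod_cast h2
  have h3' : a.2 + (p : ℤ) * i.2 + 1 < f.2 := by exact_mod_cast h3
  have h4' : f.2 + 1 < a.2 + (p : ℤ) * i.2 + 4 * p := by exact_mod_cast h4
  have hp' : (0 : ℤ) < p := by exact_mod_cast hp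
  have aux : ∀ x j : ℤ, (p : ℤ) * j < x → x < (p : ℤ) * j + 4 * p →
      x / (p : ℤ) - 4 ≤ j ∧ j ≤ x / (p : ℤ) := by
    intro x j hx1 hx2
    have e1 := Int.mul_ediv_add_emod x p
    have e2 := Int.emod_nonneg x hp'.ne'
    have e3 := Int.emod_lt_of_pos x hp'
    constructor
    · by_contra hc
      push Not at hc
      have h5 : (p : ℤ) * (j + 5) ≤ (p : ℤ) * (x / (p : ℤ)) :=
        mul_le_mul_of_nonneg_left (by omega) hp'.le
      nlinarith
    · by_contra hc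
      push Not at hc
      have h5 : (p : ℤ) * (x / (p : ℤ) + 1) ≤ (p : ℤ) * j :=
        mul_le_mul_of_nonneg_left (by omega) hp'.le
      nlinarith
  have g1 := aux (e.1.1 - a.1) i.1 (by omega) (by omega)
  have g2 := aux (e.1.2 - a.2) i.2 (by omega) (by omega)
  rw [Finset.mem_product, Finset.mem_Icc, Finset.mem_Icc]
  exact ⟨g1, g2⟩

/-- sum over the pieces -/
lemma rem_sum {γ K : ℝ} {φ : Z2 → ℝ} (h : Sm γ φ) (hγ : 0 ≤ γ) {p : ℕ} (hp : 1 ≤ p)
    (hK : ∀ z w : ℝ × ℝ, |bu z - bu w| ≤ K * ‖z - w‖) (hK0 : 0 ≤ K) (a : Z2) (I : Finset Z2)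
    (e : Bnd) :
    |dr (fun f => ∑ i ∈ I, bu (zz (4 * p) (cor a p i) f) * (φ f - aff φ (cor a p i) f)) e| ≤
      25 * ((2 + 4 * K) * ((4 * p : ℕ) * γ)) := by
  classical
  rw [dr_sum I (fun i f => bu (zz (4 * p) (cor a p i) f) * (φ f - aff φ (cor a p i) f)) e]
  refine (Finset.abs_sum_le_sum_abs _ _).trans ?_
  set T := Finset.Icc ((e.1.1 - a.1) / (p : ℤ) - 4) ((e.1.1 - a.1) / (p : ℤ)) ×ˢ
      Finset.Icc ((e.1.2 - a.2) / (p : ℤ) - 4) ((e.1.2 - a.2) / (p : ℤ)) with hT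
  have hcard : (T.card : ℝ) = 25 := by
    rw [hT, Finset.card_product, Int.card_Icc, Int.card_Icc]
    have h1 : ((e.1.1 - a.1) / (p : ℤ) + 1 - ((e.1.1 - a.1) / (p : ℤ) - 4)).toNat = 5 := by omega
    have h2 : ((e.1.2 - a.2) / (p : ℤ) + 1 - ((e.1.2 - a.2) / (p : ℤ) - 4)).toNat = 5 := by omega
    rw [h1, h2]
    norm_num
  have h0 : ∀ i, i ∉ T →
      dr (fun f => bu (zz (4 * p) (cor a p i) f) * (φ f - aff φ (cor a p i) f)) e = 0 := by
    intro i hi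
    have h1 : bu (zz (4 * p) (cor a p i) (lf e)) = 0 := by
      by_contra h2
      exact hi (near_card hp e (Or.inl h2))
    have h2 : bu (zz (4 * p) (cor a p i) (rt e)) = 0 := by
      by_contra h2
      exact hi (near_card hp e (Or.inr h2))
    simp only [dr, h1, h2]
    ring
  calc ∑ i ∈ I, |dr (fun f => bu (zz (4 * p) (cor a p i) f) * (φ f - aff φ (cor a p i) f)) e|
      = ∑ i ∈ I ∩ T,
          |dr (fun f => bu (zz (4 * p) (cor a p i) f) * (φ f - aff φ (cor a p i) f)) e| := by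
        symm
        refine Finset.sum_subset Finset.inter_subset_left fun i hi hi' => ?_
        rw [h0 i fun hT' => hi' (Finset.mem_inter.2 ⟨hi, hT'⟩), abs_zero]
    _ ≤ ∑ i ∈ T,
          |dr (fun f => bu (zz (4 * p) (cor a p i) f) * (φ f - aff φ (cor a p i) f)) e| :=
        Finset.sum_le_sum_of_subset_of_nonneg Finset.inter_subset_right
          fun i _ _ => abs_nonneg _
    _ ≤ T.card • ((2 + 4 * K) * ((4 * p : ℕ) * γ)) :=
        Finset.sum_le_card_nsmul _ _ _ fun i _ =>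
          rem_one h hγ (by omega) hK hK0 (cor a p i) e
    _ = 25 * ((2 + 4 * K) * ((4 * p : ℕ) * γ)) := by
        rw [nsmul_eq_mul, hcard]

/-- the partition of unity on a box -/
lemma bu_sum {a f : Z2} {p I : ℕ} (hp : 1 ≤ p) (h1 : |(f.1 : ℝ) - a.1| ≤ p * ((I : ℝ) - 2))
    (h2 : |(f.2 : ℝ) - a.2| ≤ p * ((I : ℝ) - 2)) :
    ∑ i ∈ Finset.Icc (-(I : ℤ)) (I : ℤ) ×ˢ Finset.Icc (-(I : ℤ)) (I : ℤ),
      bu (zz (4 * p) (cor a p i) f) = 1 := by
  have hp0 : (0 : ℝ) < p := by exact_mod_cast hp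
  have e1 : ∀ i : Z2, bu (zz (4 * p) (cor a p i) f) =
      cu (((f.1 : ℝ) - a.1) / (4 * p) - (i.1 : ℝ) / 4) *
        cu (((f.2 : ℝ) - a.2) / (4 * p) - (i.2 : ℝ) / 4) := by
    intro i
    unfold bu zz cor
    simp only
    congr 2
    · push_cast
      field_simp
      ring
    · push_cast
      field_simp
      ring
  rw [Finset.sum_congr rfl fun i _ => e1 i, Finset.sum_product]
  simp only
  have e2 : ∀ x : ℝ, |x| ≤ p * ((I : ℝ) - 2) →
      ∑ i ∈ Finset.Icc (-(I : ℤ)) (I : ℤ), cu (x / (4 * p) - (i : ℝ) / 4) = 1 := by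
    intro x hx
    rw [abs_le] at hx
    refine cu_sum ?_ ?_
    · rw [le_div_iff₀ (by positivity)]
      nlinarith [hx.1]
    · rw [div_le_iff₀ (by positivity)]
      nlinarith [hx.2]
  calc ∑ i ∈ Finset.Icc (-(I : ℤ)) (I : ℤ), ∑ j ∈ Finset.Icc (-(I : ℤ)) (I : ℤ),
        cu (((f.1 : ℝ) - a.1) / (4 * p) - (i : ℝ) / 4) *
          cu (((f.2 : ℝ) - a.2) / (4 * p) - (j : ℝ) / 4)
      = ∑ i ∈ Finset.Icc (-(I : ℤ)) (I : ℤ),
          cu (((f.1 : ℝ) - a.1) / (4 * p) - (i : ℝ) / 4) * 1 := by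
        refine Finset.sum_congr rfl fun i _ => ?_
        rw [← Finset.mul_sum, e2 _ h2]
    _ = 1 := by
        simp only [mul_one]
        exact e2 _ h1

/-- a localized affine function is a combination of the three test functions -/
lemma bu_aff (φ : Z2 → ℝ) {s : ℕ} (hs : 0 < s) (u f : Z2) : bu (zz s u f) * aff φ u f =
    ∑ k : Fin 3, (if k = 0 then φ u else if k = 1 then s * d1 φ u else s * d2 φ u) *
      tf k (zz s u f) := by
  have hs0 : (0 : ℝ) < s := by exact_mod_cast hs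
  rw [Fin.sum_univ_three]
  unfold tf aff zz
  simp only [if_true, one_ne_zero, if_false, Fin.isValue]
  have h2 : (2 : Fin 3) ≠ 0 := by decide
  have h3 : (2 : Fin 3) ≠ 1 := by decide
  simp only [h2, h3, if_false]
  field_simp

end Vale.Agent.P159.T1.S.H934
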