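import Vale.Agent.P159.T1.S.H934.Piece
import Vale.Agent.P159.T1.S.H459.Super

/-!
Lower bound of the variance for functions with scale invariant bounds in a rough domain (S.V).
-/

open Filter Topology MeasureTheory

namespace Vale.Agent.P159.T1.S.H934

open Vale.Agent.P159 Vale.Agent.P159.T1.D Vale.Agent.P159.T1.D.H469
open Vale.Agent.P159.T1.H775 (stp)

section

variable {U : Finset Z2} {φ : Z2 → ℝ} {b Y0 ε1 C : ℝ} {l : ℕ}

/-- domains at scales which are not neighbours have no common bond -/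
lemma Uj_disj (U : Finset Z2) {i j : ℕ} (hi : 4 ≤ i) (hij : i + 2 ≤ j) :
    Disjoint (bd (Uj U i)) (bd (Uj U j)) := by
  rw [Finset.disjoint_left]
  intro e he he'
  have hf : ∃ f, f ∈ Uj U i ∧ (f = rt e ∨ f = lf e) := by
    rcases H910.mem_bd.1 he with h | h
    · exact ⟨_, h, Or.inl rfl⟩
    · exact ⟨_, h, Or.inr rfl⟩
  have hg : ∃ f, f ∈ Uj U j ∧ (f = rt e ∨ f = lf e) := by
    rcases H910.mem_bd.1 he' with h | h
    · exact ⟨_, h, Or.inl rfl⟩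
    · exact ⟨_, h, Or.inr rfl⟩
  obtain ⟨f, hf, hfe⟩ := hf
  obtain ⟨g, hg, hge⟩ := hg
  obtain ⟨-, -, f2⟩ := mem_Uj.1 hf
  obtain ⟨-, g1, -⟩ := mem_Uj.1 hg
  have hn := lf_rt e
  have hd : |(g.1 : ℝ) - f.1| ≤ 1 ∧ |(g.2 : ℝ) - f.2| ≤ 1 := by
    rcases hfe with rfl | rfl <;> rcases hge with rfl | rfl
    · simp
    · exact hn
    · rw [abs_sub_comm, abs_sub_comm ((rt e).2 : ℝ)]
      exact hn
    · simp
  set t : ℝ := 2 ^ i with ht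
  have h4 : (4 : ℝ) ^ i = t * t := by
    rw [ht, ← mul_pow]
    norm_num
  have ht16 : (16 : ℝ) ≤ t := by
    calc (16 : ℝ) = 2 ^ 4 := by norm_num
      _ ≤ 2 ^ i := pow_le_pow_right₀ (by norm_num) hi
  have hj : 16 * (t * t) ≤ (4 : ℝ) ^ j := by
    calc 16 * (t * t) = (4 : ℝ) ^ (i + 2) := by
          rw [pow_add, h4]
          norm_num
          ring
      _ ≤ 4 ^ j := pow_le_pow_right₀ (by norm_num) hij
  rw [h4] at f2
  unfold qf at f2 g1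
  have c1 : |(f.1 : ℝ)| ≤ 4 * t := by
    refine abs_le_of_sq_le_sq ?_ (by positivity)
    nlinarith [sq_nonneg (f.2 : ℝ)]
  have c2 : |(f.2 : ℝ)| ≤ 4 * t := by
    refine abs_le_of_sq_le_sq ?_ (by positivity)
    nlinarith [sq_nonneg (f.1 : ℝ)]
  have key : ∀ x y : ℝ, |y - x| ≤ 1 → |x| ≤ 4 * t → y ^ 2 ≤ x ^ 2 + 8 * t + 1 := by
    intro x y hy hx
    have e1 : y ^ 2 = x ^ 2 + 2 * (x * (y - x)) + (y - x) ^ 2 := by ring
    have e2 : |x * (y - x)| ≤ 4 * t * 1 := by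
      rw [abs_mul]
      exact mul_le_mul hx hy (abs_nonneg _) (by positivity)
    have e3 : (y - x) ^ 2 ≤ 1 := by
      rw [← sq_abs]
      exact pow_le_one₀ (abs_nonneg _) hy
    rw [abs_le] at e2
    rw [e1]
    linarith
  have k1 := key _ _ hd.1 c1
  have k2 := key _ _ hd.2 c2
  nlinarith

lemma sq_sum_orth {ι : Type*} (T : Finset ι) (x : ι → ℝ)
    (h : ∀ i ∈ T, ∀ j ∈ T, i ≠ j → x i * x j = 0) : (∑ i ∈ T, x i) ^ 2 = ∑ i ∈ T, x i ^ 2 := by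
  classical
  rw [pow_two, Finset.sum_mul_sum]
  refine Finset.sum_congr rfl fun i hi => ?_
  rw [Finset.sum_eq_single i]
  · ring
  · intro j hj hji
    exact h i hi j hj (Ne.symm hji)
  · intro h'
    exact absurd hi h'

/-- one colour -/
lemma colour (hb : 0 ≤ b) (hε1 : 0 ≤ ε1) (hC : 0 ≤ C) {T : Finset ℕ}
    (hT : ∀ i ∈ T, ∀ j ∈ T, i ≠ j → Disjoint (bd (Uj U i)) (bd (Uj U j)))
    {ψ : ℕ → Z2 → ℝ} (hoff : ∀ j ∈ T, ∀ e, e ∉ bd (Uj U j) → dr (ψ j) e = 0) {x1 x2 x3 : ℝ}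
    (hv : ∀ j ∈ T, Y0 * ∑ e ∈ bd (Uj U j), dr (ψ j) e ^ 2 - x1 ≤ Vr b (Uj U j) (dr (ψ j)))
    (he : ∀ j ∈ T, ∑ e ∈ bd U, dr (ψ j) e ^ 2 ≤ x2)
    (ho : ∑ j ∈ T, osc l (bd U) (dr (ψ j)) ≤ x3) :
    Df b (Y0 + ε1) C l U (bd U) (fun e => ∑ j ∈ T, dr (ψ j) e) ≤
      T.card * (x1 + ε1 * x2 + C * x3) := by
  have h1 := H459.Vr_super hb T (Uj U) (fun j _ => Uj_sub U j) hT (fun j => dr (ψ j)) hoff
  have h2 : ∀ j ∈ T, ∑ e ∈ bd (Uj U j), dr (ψ j) e ^ 2 = ∑ e ∈ bd U, dr (ψ j) e ^ 2 := by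
    intro j hj
    refine Finset.sum_subset (H910.bd_mono (Uj_sub U j)) fun e _ he' => ?_
    rw [hoff j hj e he']
    ring
  have h3 : ∑ e ∈ bd U, (∑ j ∈ T, dr (ψ j) e) ^ 2 = ∑ j ∈ T, ∑ e ∈ bd U, dr (ψ j) e ^ 2 := by
    rw [Finset.sum_comm]
    refine Finset.sum_congr rfl fun e _ => ?_
    refine sq_sum_orth T (fun j => dr (ψ j) e) fun i hi j hj hij => ?_
    by_cases h : e ∈ bd (Uj U i)
    · rw [hoff j hj e (Finset.disjoint_left.1 (hT i hi j hj hij) h), mul_zero]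
    · rw [hoff i hi e h, zero_mul]
  have h4 : ∑ j ∈ T, (Y0 * ∑ e ∈ bd U, dr (ψ j) e ^ 2 - x1) ≤
      Vr b U (fun e => ∑ j ∈ T, dr (ψ j) e) := by
    refine le_trans (Finset.sum_le_sum fun j hj => ?_) h1
    rw [← h2 j hj]
    exact hv j hj
  rw [Finset.sum_sub_distrib, ← Finset.mul_sum, Finset.sum_const, nsmul_eq_mul] at h4
  have h5 : osc l (bd U) (fun e => ∑ j ∈ T, dr (ψ j) e) ≤ T.card * x3 :=
    (osc_sum_le l (bd U) T _).trans (mul_le_mul_of_nonneg_left ho (Nat.cast_nonneg _))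
  have h6 : ∑ j ∈ T, ∑ e ∈ bd U, dr (ψ j) e ^ 2 ≤ T.card * x2 := by
    have := Finset.sum_le_card_nsmul T _ _ he
    rwa [nsmul_eq_mul] at this
  rw [Df_eq]
  unfold Nf
  rw [h3]
  have h7 : C * osc l (bd U) (fun e => ∑ j ∈ T, dr (ψ j) e) ≤ C * (T.card * x3) :=
    mul_le_mul_of_nonneg_left h5 hC
  have h8 : ε1 * ∑ j ∈ T, ∑ e ∈ bd U, dr (ψ j) e ^ 2 ≤ ε1 * (T.card * x2) :=
    mul_le_mul_of_nonneg_left h6 hε1
  have h9 : (Y0 + ε1) * ∑ j ∈ T, ∑ e ∈ bd U, dr (ψ j) e ^ 2 =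
      Y0 * ∑ j ∈ T, ∑ e ∈ bd U, dr (ψ j) e ^ 2 + ε1 * ∑ j ∈ T, ∑ e ∈ bd U, dr (ψ j) e ^ 2 := by
    ring
  rw [h9]
  linarith

lemma Reg.off {M δ : ℝ} {n : ℕ} {a : Z2} {U : Finset Z2} {ψ : Z2 → ℝ} (h : Reg M δ n a U ψ)
    (hδ : 0 ≤ δ) (e : Bnd) (he : e ∉ bd U) : dr ψ e = 0 := by
  refine dr_supp (fun f hf => h.room f hf f ?_ ?_) e he
  · rw [sub_self, abs_zero]
    positivity
  · rw [sub_self, abs_zero]
    positivity

/-- energy at one scale -/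
lemma Reg.energy {M : ℕ} {δ : ℝ} {n : ℕ} {a : Z2} {U : Finset Z2} {ψ : Z2 → ℝ}
    (h : Reg M δ n a U ψ) (hn : 1 ≤ n) (S : Finset Bnd) :
    ∑ e ∈ S, dr ψ e ^ 2 ≤ 2 * (2 * (M : ℝ) + 3) ^ 2 * (M : ℝ) ^ 2 := by
  have hn0 : (0 : ℝ) < n := by exact_mod_cast hn
  have h1 : ∀ f, ψ f ≠ 0 → |(f.1 : ℝ) - a.1| ≤ ((M * n : ℕ) : ℝ) ∧
      |(f.2 : ℝ) - a.2| ≤ ((M * n : ℕ) : ℝ) := fun f hf => by
    push_cast
    exact h.supp f hf
  have h2 : ∀ e, |dr ψ e| ≤ M / n := by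
    rintro ⟨p, d⟩
    cases d
    · rw [dr_false]
      exact (h.bd1 _).2
    · rw [dr_true, abs_neg]
      exact (h.bd1 _).1
  refine (sum_sq_box S (dr_box h1) h2).trans ?_
  have h3 : 2 * ((M * n + 1 : ℕ) : ℝ) + 1 ≤ (2 * (M : ℝ) + 3) * n := by
    have h4 : (1 : ℝ) ≤ n := by exact_mod_cast hn
    push_cast
    linarith
  calc 2 * (2 * ((M * n + 1 : ℕ) : ℝ) + 1) ^ 2 * ((M : ℝ) / n) ^ 2
      ≤ 2 * ((2 * (M : ℝ) + 3) * n) ^ 2 * ((M : ℝ) / n) ^ 2 :=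
        mul_le_mul_of_nonneg_right (mul_le_mul_of_nonneg_left
          (pow_le_pow_left₀ (by positivity) h3 2) zero_le_two) (by positivity)
    _ = _ := by
        field_simp

lemma geo (i j : ℕ) : ∑ k ∈ Finset.Ico i j, 1 / (4 : ℝ) ^ k ≤ 2 / 4 ^ i := by
  rcases le_total j i with h | h
  · rw [Finset.Ico_eq_empty (by omega), Finset.sum_empty]
    positivity
  · have key : ∑ k ∈ Finset.Ico i j, 1 / (4 : ℝ) ^ k ≤ 2 / 4 ^ i - 2 * (1 / 4 ^ j) := by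
      induction j, h using Nat.le_induction with
      | base =>
        rw [Finset.Ico_self, Finset.sum_empty]
        exact le_of_eq (by ring)
      | succ n hn ih =>
        rw [Finset.sum_Ico_succ_top hn]
        have h1 : (1 : ℝ) / 4 ^ (n + 1) = 1 / 4 ^ n / 4 := by
          rw [pow_succ]
          field_simp
        rw [h1]
        have h2 : (0 : ℝ) < 1 / 4 ^ n := by positivity
        linarith
    have h2 : (0 : ℝ) < 1 / 4 ^ j := by positivity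
    linarith

/-- the two colours -/
noncomputable def col (i j c : ℕ) : Finset ℕ := (Finset.Ico i j).filter fun k => k % 2 = c

lemma col_sum (i j : ℕ) (x : ℕ → ℝ) :
    ∑ k ∈ Finset.Ico i j, x k = ∑ k ∈ col i j 0, x k + ∑ k ∈ col i j 1, x k := by
  unfold col
  have h : (Finset.Ico i j).filter (fun k => k % 2 = 1) =
      (Finset.Ico i j).filter (fun k => ¬ k % 2 = 0) := by
    refine Finset.filter_congr fun k _ => ?_
    omega
  rw [h, Finset.sum_filter_add_sum_filter_not]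

lemma col_card (i j c : ℕ) : ((col i j c).card : ℝ) ≤ j := by
  have h1 : (col i j c).card ≤ (Finset.Ico i j).card := Finset.card_filter_le _ _
  rw [Nat.card_Ico] at h1
  have h2 : (col i j c).card ≤ j := by omega
  exact_mod_cast h2

lemma col_mem {i j c k : ℕ} (h : k ∈ col i j c) : i ≤ k ∧ k < j ∧ k % 2 = c := by
  unfold col at h
  rw [Finset.mem_filter, Finset.mem_Ico] at h
  exact ⟨h.1.1, h.1.2, h.2⟩

/-- all scales -/
lemma scales (hb : 0 ≤ b) (hε1 : 0 ≤ ε1) (hC : 0 ≤ C)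
    (H : ∀ B : Bnd → ℝ, (∀ e, e ∉ bd U → B e = 0) →
      Vr b U B ≤ (Y0 + ε1) * ∑ e ∈ bd U, B e ^ 2 + C * osc l (bd U) B)
    {i j : ℕ} (hi : 4 ≤ i) {ψ : ℕ → Z2 → ℝ} (hdec : ∀ f, φ f = ∑ k ∈ Finset.Ico i j, ψ k f)
    (hoff : ∀ k ∈ Finset.Ico i j, ∀ e, e ∉ bd (Uj U k) → dr (ψ k) e = 0) {x1 x2 x3 : ℝ}
    (h1 : 0 ≤ x1) (h2 : 0 ≤ x2) (h3 : 0 ≤ x3)
    (hv : ∀ k ∈ Finset.Ico i j,
      Y0 * ∑ e ∈ bd (Uj U k), dr (ψ k) e ^ 2 - x1 ≤ Vr b (Uj U k) (dr (ψ k)))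
    (he : ∀ k ∈ Finset.Ico i j, ∑ e ∈ bd U, dr (ψ k) e ^ 2 ≤ x2)
    (ho : ∑ k ∈ Finset.Ico i j, osc l (bd U) (dr (ψ k)) ≤ x3) :
    Y0 * ∑ e ∈ bd U, dr φ e ^ 2 - 4 * (j * (x1 + ε1 * x2 + C * x3)) ≤ Vr b U (dr φ) := by
  have hq : 0 ≤ x1 + ε1 * x2 + C * x3 := by positivity
  have hsub : ∀ c, ∀ k ∈ col i j c, k ∈ Finset.Ico i j := fun c k hk =>
    (Finset.mem_filter.1 hk).1
  have hT : ∀ c, ∀ k ∈ col i j c, ∀ m ∈ col i j c, k ≠ m →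
      Disjoint (bd (Uj U k)) (bd (Uj U m)) := by
    intro c k hk m hm hkm
    obtain ⟨a1, a2, a3⟩ := col_mem hk
    obtain ⟨b1, b2, b3⟩ := col_mem hm
    rcases lt_or_gt_of_ne hkm with h | h
    · exact Uj_disj U (hi.trans a1) (by omega)
    · exact (Uj_disj U (hi.trans b1) (by omega)).symm
  have hD : ∀ c, Df b (Y0 + ε1) C l U (bd U) (fun e => ∑ k ∈ col i j c, dr (ψ k) e) ≤
      j * (x1 + ε1 * x2 + C * x3) := by
    intro c
    refine (colour hb hε1 hC (hT c) (fun k hk => hoff k (hsub c k hk))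
      (fun k hk => hv k (hsub c k hk)) (fun k hk => he k (hsub c k hk)) ?_).trans
      (mul_le_mul_of_nonneg_right (col_card i j c) hq)
    refine le_trans (Finset.sum_le_sum_of_subset_of_nonneg (Finset.filter_subset _ _)
      fun k _ _ => osc_nonneg _ _ _) ho
  have hoffU : ∀ c, ∀ e, e ∉ bd U → ∑ k ∈ col i j c, dr (ψ k) e = 0 := fun c e he' =>
    Finset.sum_eq_zero fun k hk => hoff k (hsub c k hk) e
      fun h' => he' (H910.bd_mono (Uj_sub U k) h')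
  have hφ : dr φ = fun e => ∑ k ∈ col i j 0, dr (ψ k) e + ∑ k ∈ col i j 1, dr (ψ k) e := by
    funext e
    rw [← col_sum i j fun k => dr (ψ k) e, ← dr_sum]
    exact congrArg (fun g => dr g e) (funext hdec)
  have h4 := Df_add_le H hb (hoffU 0) (hoffU 1)
  rw [← hφ, Df_eq] at h4
  unfold Nf at h4
  have h5 : 0 ≤ ε1 * ∑ e ∈ bd U, dr φ e ^ 2 :=
    mul_nonneg hε1 (Finset.sum_nonneg fun e _ => sq_nonneg _)
  have h6 : 0 ≤ C * osc l (bd U) (dr φ) := mul_nonneg hC (osc_nonneg _ _ _)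
  have h7 := hD 0
  have h8 := hD 1
  linarith

end

end Vale.Agent.P159.T1.S.H934
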