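import Vale.Agent.P159.T1.S.H934.SV

/-!
**S.V**: lower bound of the variance for functions with scale invariant bounds in a rough domain,
one tip (`StmtSV` of `T1/S/Stmts.lean`), from the free square.
-/

open Filter Topology MeasureTheory

namespace Vale.Agent.P159.T1.S.H934

open Vale.Agent.P159 Vale.Agent.P159.T1.D Vale.Agent.P159.T1.D.H469
open Vale.Agent.P159.T1.H775 (stp)

/-- the pieces add up -/
lemma pc_sum {φ : Z2 → ℝ} {i r : ℕ} (h : ∀ f, φ f ≠ 0 → 2 * 2 ^ i ≤ nm f ∧ nm f ≤ r) (f : Z2) :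
    φ f = ∑ k ∈ Finset.Ico i (Nat.log 2 r + 2), pc φ k f := by
  unfold pc
  rw [← Finset.sum_mul]
  by_cases h0 : φ f = 0
  · rw [h0, mul_zero]
  · obtain ⟨h1, h2⟩ := h f h0
    have h3 : r < 2 ^ (Nat.log 2 r + 1) := Nat.lt_pow_succ_log_self (by norm_num) r
    have hij : i ≤ Nat.log 2 r + 2 := by
      by_contra hc
      rw [not_le] at hc
      have h4 : 2 ^ (Nat.log 2 r + 1) ≤ 2 ^ i := Nat.pow_le_pow_right (by norm_num) (by omega)
      omega
    have h4 : (2 : ℝ) * 2 ^ i ≤ nm f := by exact_mod_cast h1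
    have h5 : (nm f : ℝ) ≤ 2 ^ (Nat.log 2 r + 1) := by
      have : nm f ≤ 2 ^ (Nat.log 2 r + 1) := by omega
      exact_mod_cast this
    have e4 : ∀ k : ℕ, (4 : ℝ) ^ k = (2 ^ k) ^ 2 := fun k => by
      rw [← pow_mul, mul_comm, pow_mul]
      norm_num
    rw [th_sum hij, one_mul]
    · have h6 := nm_sq_le f
      have h7 : ((2 : ℝ) * 2 ^ i) ^ 2 ≤ (nm f : ℝ) ^ 2 := pow_le_pow_left₀ (by positivity) h4 2
      rw [e4]
      nlinarith [sq_nonneg ((2 : ℝ) ^ i)]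
    · have h6 := qf_le f
      have h7 : (nm f : ℝ) ^ 2 ≤ (2 ^ (Nat.log 2 r + 1)) ^ 2 :=
        pow_le_pow_left₀ (by positivity) h5 2
      have h8 : (4 : ℝ) ^ (Nat.log 2 r + 2) = 4 * (2 ^ (Nat.log 2 r + 1)) ^ 2 := by
        rw [pow_succ, e4]
        ring
      rw [h8]
      nlinarith [sq_nonneg ((2 : ℝ) ^ (Nat.log 2 r + 1))]

lemma log_count {r : ℕ} (hr : 1 ≤ r) : ((Nat.log 2 r + 2 : ℕ) : ℝ) ≤ 2 * Real.log r + 2 := by
  have h1 : 2 ^ Nat.log 2 r ≤ r := Nat.pow_log_le_self 2 (by omega)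
  have h2 : ((2 : ℝ) ^ Nat.log 2 r) ≤ r := by exact_mod_cast h1
  have h3 := Real.log_le_log (by positivity) h2
  rw [Real.log_pow] at h3
  have h4 := Real.log_two_gt_d9
  have h5 : (0 : ℝ) ≤ (Nat.log 2 r : ℝ) := Nat.cast_nonneg _
  push_cast
  nlinarith

lemma pick_x {ε x : ℝ} (hε : 0 < ε) (hx : 0 ≤ x) : ∃ ε1 : ℝ, 0 < ε1 ∧ ε1 * x ≤ ε / 64 := by
  refine ⟨ε / (64 * (x + 1)), by positivity, ?_⟩
  rw [div_mul_eq_mul_div, div_le_div_iff₀ (by positivity) (by positivity)]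
  nlinarith

/-- **S.V** -/
theorem stmtSV (hpos : ∀ b, bCrit ≤ b → 0 < b ∧ 0 ≤ helicity b) (hSQ : StmtSQ)
    (hLat : StmtLat) (hUV : StmtUV) : StmtSV := by
  intro b ε δ M hb hε hδ hM
  obtain ⟨hb0, hY⟩ := hpos b hb
  obtain ⟨K, hK0, hK⟩ := th_diff
  set M' : ℕ := ⌈(4 + 5 * K) * M + 3⌉₊ with hM'
  have hMM : (4 + 5 * K) * M + 3 ≤ (M' : ℝ) := Nat.le_ceil _
  have hδ' : 0 < min (δ / 2) (1 / 48) := lt_min (by linarith) (by norm_num)
  obtain ⟨n0, hn0⟩ := loc_nat hSQ hLat hUV hb hb0 hY M' (min (δ / 2) (1 / 48)) (ε / 64) hδ'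
    (by positivity)
  obtain ⟨ε1, hε1, hε1x⟩ := pick_x (x := 2 * (2 * (M' : ℝ) + 3) ^ 2 * (M' : ℝ) ^ 2) hε
    (by positivity)
  obtain ⟨l, C, hC, hUV1⟩ := hUV b ε1 hb0 hε1
  set E : ℝ := 8 * (2 * (M' : ℝ) + 5) ^ 2 * (2 * (l : ℝ) + 1) ^ 2 * (l : ℝ) ^ 2 *
    (M' : ℝ) ^ 2 with hE
  have hE0 : 0 ≤ E := by positivity
  obtain ⟨i0, hi0⟩ := exists_nat_gt (C * (E * 2) * 64 / ε)
  set i : ℕ := max 4 (max n0 (max (l + 1) i0)) with hi
  have hi4 : 4 ≤ i := le_max_left _ _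
  have hin : n0 ≤ i := (le_max_left _ _).trans (le_max_right _ _)
  have hil : l + 1 ≤ i :=
    ((le_max_left _ _).trans (le_max_right _ _)).trans (le_max_right _ _)
  have hii : i0 ≤ i := ((le_max_right _ _).trans (le_max_right _ _)).trans (le_max_right _ _)
  have hx3 : C * (E * (2 / 4 ^ i)) ≤ ε / 64 := by
    have h1 : (i0 : ℝ) ≤ i := by exact_mod_cast hii
    have h2 : i < 4 ^ i := Nat.lt_pow_self (by norm_num)
    have h3 : (i : ℝ) < (4 : ℝ) ^ i := by exact_mod_cast h2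
    have h4 : C * (E * 2) * 64 / ε < 4 ^ i := by linarith
    rw [div_lt_iff₀ hε] at h4
    have h5 : C * (E * (2 / (4 : ℝ) ^ i)) = C * (E * 2) / 4 ^ i := by ring
    rw [h5, div_le_div_iff₀ (by positivity) (by norm_num)]
    linarith
  refine ⟨2 * 2 ^ i, ε, fun r U φ hr hsup hb0' hb1 hb2 S => ?_⟩
  have hSI : SI M δ U φ := ⟨fun f hf => (hsup f hf).2.2, hb0', hb1, hb2⟩
  have hreg : ∀ k ∈ Finset.Ico i (Nat.log 2 r + 2),
      Reg M' (min (δ / 2) (1 / 48)) (2 ^ k) (0, 0) (Uj U k) (pc φ k) := by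
    intro k hk
    rw [Finset.mem_Ico] at hk
    exact (pc_reg hSI hδ (by omega) hK0.le (fun f => hK k f)).mono hMM
  have hpw : ∀ k ∈ Finset.Ico i (Nat.log 2 r + 2), i ≤ 2 ^ k := fun k hk => by
    rw [Finset.mem_Ico] at hk
    have : k < 2 ^ k := Nat.lt_two_pow_self
    omega
  have key := scales (U := U) (φ := φ) (Y0 := helicity b) (l := l) hb0.le hε1.le hC.le
    (fun B hB => hUV1 U (bd U) B hB) hi4
    (pc_sum fun f hf => ⟨(hsup f hf).1, (hsup f hf).2.1⟩)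
    (fun k hk e he => (hreg k hk).off hδ'.le e he)
    (x1 := ε / 64) (x2 := 2 * (2 * (M' : ℝ) + 3) ^ 2 * (M' : ℝ) ^ 2) (x3 := E * (2 / 4 ^ i))
    (by positivity) (by positivity) (by positivity)
    (fun k hk => hn0 (2 ^ k) (hin.trans (hpw k hk)) (0, 0) (Uj U k) (pc φ k) (hreg k hk))
    (fun k hk => (hreg k hk).energy (Nat.one_le_two_pow) (bd U))
    (by
      have h1 : ∀ k ∈ Finset.Ico i (Nat.log 2 r + 2),
          osc l (bd U) (dr (pc φ k)) ≤ E * (1 / 4 ^ k) := by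
        intro k hk
        refine (osc_phi (hreg k hk) (hil.trans (hpw k hk)) (bd U)).trans (le_of_eq ?_)
        have h2 : (((2 ^ k : ℕ) : ℝ)) ^ 2 = 4 ^ k := by
          push_cast
          rw [← pow_mul, mul_comm, pow_mul]
          norm_num
        rw [h2, hE]
        ring
      refine (Finset.sum_le_sum h1).trans ?_
      rw [← Finset.mul_sum]
      exact mul_le_mul_of_nonneg_left (geo _ _) hE0)
  have hlc := log_count hr
  set j : ℝ := ((Nat.log 2 r + 2 : ℕ) : ℝ) with hj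
  have hj0 : 0 ≤ j := Nat.cast_nonneg _
  have h1 : j * (ε / 64 + ε1 * (2 * (2 * (M' : ℝ) + 3) ^ 2 * (M' : ℝ) ^ 2) +
      C * (E * (2 / 4 ^ i))) ≤ (2 * Real.log r + 2) * (3 * (ε / 64)) :=
    mul_le_mul hlc (by linarith) (by positivity) (by linarith)
  have hlog : 0 ≤ Real.log r := Real.log_natCast_nonneg r
  have h2 : ∑ e ∈ S, dr φ e ^ 2 ≤ ∑ e ∈ bd U, dr φ e ^ 2 := by
    refine sum_le_off S (bd U) (fun e => sq_nonneg _) fun e he => ?_
    have h3 : dr φ e = 0 := by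
      refine dr_supp (fun f hf => hSI.room f hf f ?_ ?_) e he
      · rw [sub_self, Int.cast_zero, abs_zero]
        positivity
      · rw [sub_self, Int.cast_zero, abs_zero]
        positivity
    rw [h3]
    ring
  have h3 := mul_le_mul_of_nonneg_left h2 hY
  have h4 : 0 ≤ ε * Real.log r := mul_nonneg hε.le hlog
  have h5 : 4 * ((2 * Real.log r + 2) * (3 * (ε / 64))) = 3 / 8 * (ε * Real.log r) + 3 / 8 * ε := by
    ring
  linarith

end Vale.Agent.P159.T1.S.H934
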