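import Vale.Agent.P159.T1.S.H934.Loc3
import Vale.Agent.P159.T1.S.Stmts

/-!
Dyadic radial partition of unity.
-/

open Filter Topology MeasureTheory

namespace Vale.Agent.P159.T1.S.H934

open Vale.Agent.P159 Vale.Agent.P159.T1.D
open Vale.Agent.P159.T1.H775 (stp)

/-! ### smooth functions: first and second differences -/

lemma diff_bound {Θ : ℝ × ℝ → ℝ} (h : ContDiff ℝ 2 Θ) (hc : HasCompactSupport Θ) :
    ∃ K : ℝ, 0 < K ∧ (∀ x v, |Θ (x + v) - Θ x| ≤ K * ‖v‖) ∧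
      ∀ x v w, |Θ (x + v + w) - Θ (x + v) - (Θ (x + w) - Θ x)| ≤ K * ‖v‖ * ‖w‖ := by
  obtain ⟨K1, hK1⟩ := ContDiff.lipschitzWith_of_hasCompactSupport hc h (by norm_num)
  have hf : ContDiff ℝ 1 (fderiv ℝ Θ) := h.fderiv_right (by norm_num)
  obtain ⟨K2, hK2⟩ := ContDiff.lipschitzWith_of_hasCompactSupport (hc.fderiv ℝ) hf (by norm_num)
  refine ⟨K1 + K2 + 1, by positivity, fun x v => ?_, fun x v w => ?_⟩
  · have h1 := hK1.dist_le_mul (x + v) x
    rw [Real.dist_eq, dist_eq_norm, add_sub_cancel_left] at h1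
    have h2 := norm_nonneg v
    have h3 : (0 : ℝ) ≤ (K2 : ℝ) * ‖v‖ := by positivity
    linarith
  · have hd : Differentiable ℝ Θ := h.differentiable (by norm_num)
    set G : ℝ × ℝ → ℝ := fun y => Θ (y + w) - Θ y with hG
    have hGd : ∀ y ∈ (Set.univ : Set (ℝ × ℝ)), DifferentiableAt ℝ G y := fun y _ =>
      ((hd (y + w)).comp y (differentiableAt_id.add_const w)).sub (hd y)
    have hGn : ∀ y ∈ (Set.univ : Set (ℝ × ℝ)), ‖fderiv ℝ G y‖ ≤ K2 * ‖w‖ := by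
      intro y _
      have e1 : fderiv ℝ G y = fderiv ℝ Θ (y + w) - fderiv ℝ Θ y := by
        rw [hG, fderiv_fun_sub (show DifferentiableAt ℝ (fun y => Θ (y + w)) y from
            (hd (y + w)).comp y (differentiableAt_id.add_const w)) (hd y),
          fderiv_comp_add_right]
      rw [e1]
      have h1 := hK2.dist_le_mul (y + w) y
      rwa [dist_eq_norm, dist_eq_norm, add_sub_cancel_left] at h1
    have h1 := convex_univ.norm_image_sub_le_of_norm_fderiv_le hGd hGn (Set.mem_univ x)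
      (Set.mem_univ (x + v))
    rw [add_sub_cancel_left, Real.norm_eq_abs] at h1
    have h2 : Θ (x + v + w) - Θ (x + v) - (Θ (x + w) - Θ x) = G (x + v) - G x := by
      simp only [hG]
    rw [h2]
    refine h1.trans ?_
    have h3 : 0 ≤ ‖v‖ * ‖w‖ := by positivity
    have h4 : (0 : ℝ) ≤ (K1 : ℝ) * (‖v‖ * ‖w‖) := by positivity
    calc (K2 : ℝ) * ‖w‖ * ‖v‖ = K2 * (‖v‖ * ‖w‖) := by ring
      _ ≤ (K1 + K2 + 1) * (‖v‖ * ‖w‖) := by nlinarith
      _ = _ := by ring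

/-! ### the radial cut-off -/

/-- smooth step from `1` to `2` -/
noncomputable def sc (x : ℝ) : ℝ := Real.smoothTransition (x - 1)

lemma sc_zero {x : ℝ} (h : x ≤ 1) : sc x = 0 :=
  Real.smoothTransition.zero_of_nonpos (by linarith)

lemma sc_one {x : ℝ} (h : 2 ≤ x) : sc x = 1 :=
  Real.smoothTransition.one_of_one_le (by linarith)

lemma sc_nonneg (x : ℝ) : 0 ≤ sc x := Real.smoothTransition.nonneg _

lemma sc_le_one (x : ℝ) : sc x ≤ 1 := Real.smoothTransition.le_one _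

lemma sc_mono : Monotone sc := fun x y h => Real.smoothTransition.monotone (by linarith)

lemma sc_contDiff : ContDiff ℝ 2 sc := by
  unfold sc
  exact Real.smoothTransition.contDiff.comp (contDiff_id.sub contDiff_const)

/-- radial function, supported in `1 ≤ |z|² ≤ 8` -/
noncomputable def Th (z : ℝ × ℝ) : ℝ := sc (z.1 ^ 2 + z.2 ^ 2) - sc ((z.1 ^ 2 + z.2 ^ 2) / 4)

lemma Th_nonneg (z : ℝ × ℝ) : 0 ≤ Th z := by
  have h : 0 ≤ z.1 ^ 2 + z.2 ^ 2 := by positivity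
  exact sub_nonneg.2 (sc_mono (by linarith))

lemma Th_le_one (z : ℝ × ℝ) : Th z ≤ 1 := by
  have h1 := sc_le_one (z.1 ^ 2 + z.2 ^ 2)
  have h2 := sc_nonneg ((z.1 ^ 2 + z.2 ^ 2) / 4)
  unfold Th
  linarith

lemma Th_mem {z : ℝ × ℝ} (h : Th z ≠ 0) : 1 < z.1 ^ 2 + z.2 ^ 2 ∧ z.1 ^ 2 + z.2 ^ 2 < 8 := by
  have h0 : 0 ≤ z.1 ^ 2 + z.2 ^ 2 := by positivity
  constructor
  · by_contra h1
    rw [not_lt] at h1
    apply h
    unfold Th
    rw [sc_zero h1, sc_zero (by linarith), sub_zero]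
  · by_contra h1
    rw [not_lt] at h1
    apply h
    unfold Th
    rw [sc_one (by linarith), sc_one (by linarith), sub_self]

lemma Th_contDiff : ContDiff ℝ 2 Th := by
  have h1 : ContDiff ℝ 2 fun z : ℝ × ℝ => z.1 ^ 2 + z.2 ^ 2 :=
    (contDiff_fst.pow 2).add (contDiff_snd.pow 2)
  unfold Th
  exact (sc_contDiff.comp h1).sub (sc_contDiff.comp (h1.div_const 4))

lemma Th_compact : HasCompactSupport Th := by
  refine HasCompactSupport.intro (K := Set.Icc (-3 : ℝ) 3 ×ˢ Set.Icc (-3 : ℝ) 3)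
    (isCompact_Icc.prod isCompact_Icc) fun z hz => ?_
  by_contra h
  obtain ⟨-, h2⟩ := Th_mem h
  apply hz
  refine ⟨⟨?_, ?_⟩, ?_, ?_⟩ <;> nlinarith [sq_nonneg z.1, sq_nonneg z.2]

/-- the cut-off at scale `2 ^ j` -/
noncomputable def th (j : ℕ) (f : Z2) : ℝ := Th ((f.1 : ℝ) / 2 ^ j, (f.2 : ℝ) / 2 ^ j)

/-- square of the Euclidean norm -/
def qf (f : Z2) : ℝ := (f.1 : ℝ) ^ 2 + (f.2 : ℝ) ^ 2

lemma th_eq (j : ℕ) (f : Z2) : th j f = sc (qf f / 4 ^ j) - sc (qf f / 4 ^ (j + 1)) := by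
  have h4 : (4 : ℝ) ^ j = 2 ^ j * 2 ^ j := by
    rw [← mul_pow]
    norm_num
  have h1 : ((f.1 : ℝ) / 2 ^ j) ^ 2 + ((f.2 : ℝ) / 2 ^ j) ^ 2 = qf f / 4 ^ j := by
    unfold qf
    rw [h4]
    field_simp
  unfold th Th
  simp only
  rw [h1]
  congr 2
  rw [pow_succ]
  field_simp

lemma th_nonneg (j : ℕ) (f : Z2) : 0 ≤ th j f := Th_nonneg _

lemma th_le_one (j : ℕ) (f : Z2) : th j f ≤ 1 := Th_le_one _

lemma th_mem {j : ℕ} {f : Z2} (h : th j f ≠ 0) : (4 : ℝ) ^ j < qf f ∧ qf f < 8 * 4 ^ j := by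
  have h4 : (4 : ℝ) ^ j = 2 ^ j * 2 ^ j := by
    rw [← mul_pow]
    norm_num
  have h0 : (0 : ℝ) < 4 ^ j := by positivity
  obtain ⟨h1, h2⟩ := Th_mem h
  have h3 : ((f.1 : ℝ) / 2 ^ j) ^ 2 + ((f.2 : ℝ) / 2 ^ j) ^ 2 = qf f / 4 ^ j := by
    unfold qf
    rw [h4]
    field_simp
  simp only at h1 h2
  rw [h3] at h1 h2
  rw [lt_div_iff₀ h0] at h1
  rw [div_lt_iff₀ h0] at h2
  exact ⟨by linarith, h2⟩

/-- telescoping -/
lemma th_tele {i j : ℕ} (hij : i ≤ j) (f : Z2) :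
    ∑ k ∈ Finset.Ico i j, th k f = sc (qf f / 4 ^ i) - sc (qf f / 4 ^ j) := by
  induction j, hij using Nat.le_induction with
  | base => simp
  | succ n hn ih =>
    rw [Finset.sum_Ico_succ_top hn, ih, th_eq]
    ring

lemma th_sum {i j : ℕ} (hij : i ≤ j) {f : Z2} (h1 : 2 * 4 ^ i ≤ qf f) (h2 : qf f ≤ 4 ^ j) :
    ∑ k ∈ Finset.Ico i j, th k f = 1 := by
  rw [th_tele hij, sc_one, sc_zero, sub_zero]
  · rw [div_le_one (by positivity)]
    exact h2
  · rw [le_div_iff₀ (by positivity)]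
    exact h1

/-- unit vectors -/
noncomputable def ev (d : Bool) (j : ℕ) : ℝ × ℝ := if d then (0, 1 / 2 ^ j) else (1 / 2 ^ j, 0)

lemma ev_norm (d : Bool) (j : ℕ) : ‖ev d j‖ = 1 / 2 ^ j := by
  have h : (0 : ℝ) ≤ 1 / 2 ^ j := by positivity
  unfold ev
  cases d
  · simp only [Bool.false_eq_true, if_false, Prod.norm_def, norm_zero, Real.norm_eq_abs,
      abs_of_nonneg h, max_eq_left h]
  · simp only [if_true, Prod.norm_def, norm_zero, Real.norm_eq_abs,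
      abs_of_nonneg h, max_eq_right h]

lemma stp_ev (d : Bool) (j : ℕ) (f : Z2) :
    (((stp d f).1 : ℝ) / 2 ^ j, ((stp d f).2 : ℝ) / 2 ^ j) =
      (((f.1 : ℝ) / 2 ^ j, (f.2 : ℝ) / 2 ^ j) : ℝ × ℝ) + ev d j := by
  unfold stp ev
  cases d
  · simp only [Bool.false_eq_true, if_false, Prod.mk_add_mk, add_zero]
    push_cast
    rw [add_div]
  · simp only [if_true, Prod.mk_add_mk, add_zero]
    push_cast
    rw [add_div]

/-- differences of the cut-off functions -/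
lemma th_diff : ∃ K : ℝ, 0 < K ∧ ∀ j f,
    (∀ d, |th j (stp d f) - th j f| ≤ K / 2 ^ j) ∧
    ∀ d d', |th j (stp d (stp d' f)) - th j (stp d' f) - (th j (stp d f) - th j f)| ≤
      K / 4 ^ j := by
  obtain ⟨K, hK, h1, h2⟩ := diff_bound Th_contDiff Th_compact
  refine ⟨K, hK, fun j f => ⟨fun d => ?_, fun d d' => ?_⟩⟩
  · unfold th
    rw [stp_ev]
    refine (h1 _ _).trans (le_of_eq ?_)
    rw [ev_norm]
    ring
  · unfold th
    rw [stp_ev, stp_ev, stp_ev]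
    refine (h2 _ _ _).trans (le_of_eq ?_)
    rw [ev_norm, ev_norm]
    have h4 : (4 : ℝ) ^ j = 2 ^ j * 2 ^ j := by
      rw [← mul_pow]
      norm_num
    rw [h4]
    field_simp

end Vale.Agent.P159.T1.S.H934
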